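import Vale.Agent.P207.H395.NSys

/-!
# P207, block SPEC, row R2: finite powers of a system of skew derivations

`S.pi κ : HSys ι (PiLp 2 fun _ : κ => H)`: smooth vectors, derivations and groups componentwise,
multipliers = matrices over the multipliers of `S`.
-/

open Filter Topology
open scoped InnerProductSpace

noncomputable section

namespace Vale.Agent.P207.H395

variable {ι : Type} [Fintype ι] {H : Type} [NormedAddCommGroup H] [InnerProductSpace ℝ H]
  [CompleteSpace H]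

section Ops

variable {κ κ' κ'' : Type} [Fintype κ] [Fintype κ'] [Fintype κ'']

/-- the finite power of a Hilbert space -/
abbrev Pw (κ H : Type) [Fintype κ] [NormedAddCommGroup H] [InnerProductSpace ℝ H] : Type :=
  PiLp 2 (fun _ : κ => H)

omit [CompleteSpace H] in
theorem tendsto_Pw {α : Type*} {l : Filter α} {f : α → Pw κ H} {u : Pw κ H} :
    Tendsto f l (𝓝 u) ↔ ∀ k, Tendsto (fun n => f n k) l (𝓝 (u k)) := by
  constructor
  · intro h k
    exact ((PiLp.continuous_apply 2 _ k).tendsto u).comp h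
  · intro h
    have h1 : Tendsto (fun n => (WithLp.ofLp (f n) : κ → H)) l (𝓝 (WithLp.ofLp u)) :=
      tendsto_pi_nhds.2 h
    exact ((PiLp.continuous_toLp 2 (fun _ : κ => H)).tendsto _).comp h1

omit [CompleteSpace H] in
theorem hasDerivAt_Pw {f : ℝ → Pw κ H} {f' : Pw κ H} {x : ℝ}
    (h : ∀ k, HasDerivAt (fun t => f t k) (f' k) x) : HasDerivAt f f' x := by
  have h1 : HasDerivAt (fun t => (WithLp.ofLp (f t) : κ → H)) (WithLp.ofLp f') x :=
    hasDerivAt_pi.2 h
  exact (PiLp.continuousLinearEquiv 2 ℝ (fun _ : κ => H)).symm.hasFDerivAt.comp_hasDerivAt x h1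

/-- the operator given by a matrix of operators -/
def matOp (M : κ' → κ → H →L[ℝ] H) : Pw κ H →L[ℝ] Pw κ' H :=
  (PiLp.continuousLinearEquiv 2 ℝ (fun _ : κ' => H)).symm.toContinuousLinearMap ∘L
    ContinuousLinearMap.pi fun k => ∑ l, (M k l) ∘L PiLp.proj 2 (fun _ : κ => H) l

omit [CompleteSpace H] in
@[simp] theorem matOp_apply (M : κ' → κ → H →L[ℝ] H) (u : Pw κ H) (k : κ') :
    matOp M u k = ∑ l, M k l (u l) := by
  simp [matOp]

/-- the diagonal operator -/
def dOp (κ : Type) [Fintype κ] (P : H →L[ℝ] H) : Pw κ H →L[ℝ] Pw κ H :=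
  (PiLp.continuousLinearEquiv 2 ℝ (fun _ : κ => H)).symm.toContinuousLinearMap ∘L
    ContinuousLinearMap.pi fun k => P ∘L PiLp.proj 2 (fun _ : κ => H) k

omit [CompleteSpace H] in
@[simp] theorem dOp_apply (P : H →L[ℝ] H) (u : Pw κ H) (k : κ) : dOp κ P u k = P (u k) := by
  simp [dOp]

omit [CompleteSpace H] in
theorem dOp_eq_matOp [DecidableEq κ] (P : H →L[ℝ] H) :
    dOp κ P = matOp fun k l => if k = l then P else 0 := by
  ext u k
  simp only [dOp_apply, matOp_apply]
  rw [Finset.sum_eq_single k]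
  · simp
  · intro l _ hl; rw [if_neg (Ne.symm hl)]; rfl
  · intro h; exact absurd (Finset.mem_univ k) h

omit [CompleteSpace H] in
theorem matOp_comp (M : κ'' → κ' → H →L[ℝ] H) (N : κ' → κ → H →L[ℝ] H) (u : Pw κ H) :
    matOp M (matOp N u) = matOp (fun k l => ∑ j, M k j * N j l) u := by
  ext k
  simp only [matOp_apply, map_sum, sum_apply, mul_apply_eq_comp]
  rw [Finset.sum_comm]

theorem matOp_adjoint (M : κ' → κ → H →L[ℝ] H) :
    ContinuousLinearMap.adjoint (matOp M) =
      matOp fun l k => ContinuousLinearMap.adjoint (M k l) := by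
  symm
  rw [ContinuousLinearMap.eq_adjoint_iff]
  intro x y
  simp only [PiLp.inner_apply, matOp_apply, sum_inner, inner_sum,
    ContinuousLinearMap.adjoint_inner_left]
  rw [Finset.sum_comm]

omit [CompleteSpace H] in
theorem norm_Pw_sq (u : Pw κ H) : ‖u‖ ^ 2 = ∑ k, ‖u k‖ ^ 2 := PiLp.norm_sq_eq_of_L2 _ u

omit [CompleteSpace H] in
theorem norm_Pw_le_sum (u : Pw κ H) : ‖u‖ ≤ ∑ k, ‖u k‖ := by
  have h1 : ‖u‖ ^ 2 ≤ (∑ k, ‖u k‖) ^ 2 := by
    rw [norm_Pw_sq]
    exact Finset.sum_sq_le_sq_sum_of_nonneg fun _ _ => norm_nonneg _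
  exact (pow_le_pow_iff_left₀ (norm_nonneg _) (Finset.sum_nonneg fun _ _ => norm_nonneg _)
    two_ne_zero).1 h1

omit [CompleteSpace H] in
theorem norm_apply_le_Pw (u : Pw κ H) (k : κ) : ‖u k‖ ≤ ‖u‖ := PiLp.norm_apply_le u k

end Ops

namespace HSys

variable (S : HSys ι H) (κ : Type) [Fintype κ]

/-- componentwise smooth vectors -/
def piA : Submodule ℝ (Pw κ H) where
  carrier := {u | ∀ k, u k ∈ S.A}
  add_mem' := fun ha hb k => S.A.add_mem (ha k) (hb k)
  zero_mem' := fun _ => S.A.zero_mem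
  smul_mem' := fun c _ ha k => S.A.smul_mem c (ha k)

variable {S κ}

theorem mem_piA {u : Pw κ H} : u ∈ S.piA κ ↔ ∀ k, u k ∈ S.A := Iff.rfl

/-- the components of a smooth vector -/
def cmp (u : S.piA κ) (k : κ) : S.A := ⟨(u : Pw κ H) k, u.2 k⟩

@[simp] theorem coe_cmp (u : S.piA κ) (k : κ) : (cmp u k : H) = (u : Pw κ H) k := rfl

/-- the smooth vector with given components -/
def mkA (a : κ → S.A) : S.piA κ := ⟨WithLp.toLp 2 fun k => (a k : H), fun k => (a k).2⟩

@[simp] theorem coe_mkA (a : κ → S.A) (k : κ) : ((mkA a : S.piA κ) : Pw κ H) k = a k := rfl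

@[simp] theorem cmp_mkA (a : κ → S.A) (k : κ) : cmp (mkA a) k = a k := rfl

@[simp] theorem mkA_cmp (u : S.piA κ) : mkA (cmp u) = u := rfl

@[simp] theorem cmp_add (u v : S.piA κ) (k : κ) : cmp (u + v) k = cmp u k + cmp v k := rfl

@[simp] theorem cmp_smul (c : ℝ) (u : S.piA κ) (k : κ) : cmp (c • u) k = c • cmp u k := rfl

@[simp] theorem cmp_zero (k : κ) : cmp (0 : S.piA κ) k = 0 := rfl

@[simp] theorem cmp_neg (u : S.piA κ) (k : κ) : cmp (-u) k = -cmp u k := rfl

@[simp] theorem cmp_sub (u v : S.piA κ) (k : κ) : cmp (u - v) k = cmp u k - cmp v k := rfl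

theorem piA_ext {u v : S.piA κ} (h : ∀ k, cmp u k = cmp v k) : u = v := by
  apply Subtype.ext
  ext k
  exact congrArg Subtype.val (h k)

variable (S κ)

/-- componentwise derivations -/
def piX (i : ι) : S.piA κ →ₗ[ℝ] S.piA κ where
  toFun u := mkA fun k => S.X i (cmp u k)
  map_add' u v := piA_ext fun k => by simp
  map_smul' c u := piA_ext fun k => by simp

@[simp] theorem cmp_piX (i : ι) (u : S.piA κ) (k : κ) : cmp (S.piX κ i u) k = S.X i (cmp u k) := rfl

@[simp] theorem coe_piX (i : ι) (u : S.piA κ) (k : κ) :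
    ((S.piX κ i u : S.piA κ) : Pw κ H) k = S.X i (cmp u k) := rfl

/-- matrices of multipliers -/
def piT : Subalgebra ℝ (Pw κ H →L[ℝ] Pw κ H) where
  carrier := {P | ∃ M : κ → κ → H →L[ℝ] H, (∀ k l, M k l ∈ S.T) ∧ P = matOp M}
  mul_mem' := by
    rintro _ _ ⟨M, hM, rfl⟩ ⟨N, hN, rfl⟩
    refine ⟨fun k l => ∑ j, M k j * N j l, fun k l => S.T.sum_mem fun j _ =>
      S.T.mul_mem (hM k j) (hN j l), ?_⟩
    refine ContinuousLinearMap.ext fun u => ?_
    exact matOp_comp M N u
  add_mem' := by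
    rintro _ _ ⟨M, hM, rfl⟩ ⟨N, hN, rfl⟩
    refine ⟨fun k l => M k l + N k l, fun k l => S.T.add_mem (hM k l) (hN k l), ?_⟩
    refine ContinuousLinearMap.ext fun u => ?_
    ext k
    simp [Finset.sum_add_distrib]
  algebraMap_mem' := by
    classical
    intro r
    refine ⟨fun k l => if k = l then algebraMap ℝ _ r else 0, fun k l => ?_, ?_⟩
    · dsimp only
      split_ifs
      · exact S.T.algebraMap_mem r
      · exact S.T.zero_mem
    · rw [← dOp_eq_matOp]
      refine ContinuousLinearMap.ext fun u => ?_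
      ext k
      simp [Algebra.algebraMap_eq_smul_one]

variable {S κ}

theorem matOp_mem_piT {M : κ → κ → H →L[ℝ] H} (hM : ∀ k l, M k l ∈ S.T) :
    matOp M ∈ S.piT κ := ⟨M, hM, rfl⟩

theorem dOp_mem_piT {P : H →L[ℝ] H} (hP : P ∈ S.T) : dOp κ P ∈ S.piT κ := by
  classical
  rw [dOp_eq_matOp]
  refine matOp_mem_piT fun k l => ?_
  split_ifs
  · exact hP
  · exact S.T.zero_mem

theorem matOp_mem_piA {κ' : Type} [Fintype κ'] {M : κ' → κ → H →L[ℝ] H}
    (hM : ∀ k l, M k l ∈ S.T) {u : Pw κ H} (hu : u ∈ S.piA κ) : matOp M u ∈ S.piA κ' := by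
  intro k
  rw [matOp_apply]
  exact S.A.sum_mem fun l _ => S.T_mem _ (hM k l) _ (hu l)

/-- derivations of `M u` for a matrix `M` of multipliers -/
theorem exists_matOp_comm {κ' : Type} [Fintype κ'] (i : ι) {M : κ' → κ → H →L[ℝ] H}
    (hM : ∀ k l, M k l ∈ S.T) : ∃ Q : κ' → κ → H →L[ℝ] H, (∀ k l, Q k l ∈ S.T) ∧
      ∀ u : S.piA κ, ((S.piX κ' i ⟨matOp M u, matOp_mem_piA hM u.2⟩ : S.piA κ') : Pw κ' H) =
        matOp M (S.piX κ i u) + matOp Q u := by
  choose Q hQ hPQ using fun k l => S.T_comm i (M k l) (hM k l)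
  refine ⟨Q, hQ, fun u => ?_⟩
  ext k
  rw [coe_piX]
  have h1 : cmp (⟨matOp M u, matOp_mem_piA hM u.2⟩ : S.piA κ') k =
      ∑ l, (⟨M k l (cmp u l), S.T_mem _ (hM k l) _ (cmp u l).2⟩ : S.A) := by
    apply Subtype.ext
    rw [coe_cmp, AddSubmonoidClass.coe_finsetSum]
    simp
  rw [h1, map_sum, AddSubmonoidClass.coe_finsetSum]
  rw [PiLp.add_apply, matOp_apply, matOp_apply, ← Finset.sum_add_distrib]
  exact Finset.sum_congr rfl fun l _ => hPQ k l (cmp u l)

variable (S κ)

/-- **The finite power of a system.** -/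
def pi : HSys ι (Pw κ H) where
  A := S.piA κ
  dense := by
    intro u
    choose a ha using fun k => S.exists_seq_A (u k)
    refine mem_closure_of_tendsto (b := atTop)
      (f := fun n => ((mkA fun k => a k n : S.piA κ) : Pw κ H)) ?_
      (Eventually.of_forall fun n => (mkA fun k => a k n : S.piA κ).2)
    exact tendsto_Pw.2 fun k => ha k
  X := S.piX κ
  skew := by
    intro i u v
    rw [PiLp.inner_apply, PiLp.inner_apply, ← Finset.sum_neg_distrib]
    exact Finset.sum_congr rfl fun k _ => S.skew i (cmp u k) (cmp v k)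
  U i t := dOp κ (S.U i t)
  U_zero := by
    intro i
    refine ContinuousLinearMap.ext fun u => ?_
    ext k
    simp [S.U_zero]
  U_add := by
    intro i s t
    refine ContinuousLinearMap.ext fun u => ?_
    ext k
    simp [S.U_add]
  U_norm := by
    intro i t u
    rw [← pow_left_inj₀ (norm_nonneg _) (norm_nonneg _) two_ne_zero, norm_Pw_sq, norm_Pw_sq]
    simp [S.U_norm]
  U_mem := by
    intro i t u hu k
    rw [dOp_apply]
    exact S.U_mem i t _ (hu k)
  U_deriv := by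
    intro i u
    refine hasDerivAt_Pw fun k => ?_
    simp only [dOp_apply]
    exact S.U_deriv i (cmp u k)
  XU_deriv := by
    intro i j u
    refine hasDerivAt_Pw fun k => ?_
    have h1 := S.XU_deriv i j (cmp u k)
    refine h1.congr_of_eventuallyEq (Eventually.of_forall fun t => ?_)
    simp only [coe_piX]
    congr 2
  T := S.piT κ
  T_mem := by
    rintro _ ⟨M, hM, rfl⟩ u hu
    exact matOp_mem_piA hM hu
  T_adj := by
    rintro _ ⟨M, hM, rfl⟩
    rw [matOp_adjoint]
    exact matOp_mem_piT fun k l => S.T_adj _ (hM l k)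
  T_comm := by
    rintro i _ ⟨M, hM, rfl⟩
    obtain ⟨Q, hQ, h⟩ := exists_matOp_comm i hM
    exact ⟨matOp Q, matOp_mem_piT hQ, h⟩
  comm := by
    intro i j
    obtain ⟨c, hc, h⟩ := S.comm i j
    refine ⟨fun k => dOp κ (c k), fun k => dOp_mem_piT (hc k), fun u => ?_⟩
    ext l
    have h1 := h (cmp u l)
    rw [PiLp.sub_apply, coe_piX, coe_piX, cmp_piX, cmp_piX, h1]
    have h2 : (∑ k, dOp κ (c k) ((S.piX κ k u : S.piA κ) : Pw κ H)) l =
        ∑ k, (dOp κ (c k) ((S.piX κ k u : S.piA κ) : Pw κ H)) l := by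
      rw [WithLp.ofLp_sum, Finset.sum_apply]
    rw [h2]
    simp

@[simp] theorem pi_A : (S.pi κ).A = S.piA κ := rfl

@[simp] theorem pi_X (i : ι) : (S.pi κ).X i = S.piX κ i := rfl

@[simp] theorem pi_T : (S.pi κ).T = S.piT κ := rfl

theorem pi_U (i : ι) (t : ℝ) : (S.pi κ).U i t = dOp κ (S.U i t) := rfl

@[simp] theorem pi_U_apply (i : ι) (t : ℝ) (u : Pw κ H) (k : κ) :
    (S.pi κ).U i t u k = S.U i t (u k) := by rw [pi_U, dOp_apply]

variable {S κ}

theorem pi_IsH1 {u : Pw κ H} {v : ι → Pw κ H} :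
    (S.pi κ).IsH1 u v ↔ ∀ k, S.IsH1 (u k) (fun i => v i k) := by
  constructor
  · rintro ⟨a, ha, hb⟩ k
    exact ⟨fun n => cmp (a n) k, tendsto_Pw.1 ha k, fun i => tendsto_Pw.1 (hb i) k⟩
  · intro h
    choose a ha hb using h
    exact ⟨fun n => mkA fun k => a k n, tendsto_Pw.2 ha, fun i => tendsto_Pw.2 fun k => hb k i⟩

theorem pi_Sob {s : ℕ} {u : Pw κ H} : (S.pi κ).Sob s u ↔ ∀ k, S.Sob s (u k) := by
  induction s generalizing u with
  | zero => exact ⟨fun _ _ => trivial, fun _ => trivial⟩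
  | succ s ih =>
    constructor
    · rintro ⟨v, hv, hv2⟩ k
      exact ⟨fun i => v i k, pi_IsH1.1 hv k, fun i => ih.1 (hv2 i) k⟩
    · intro h
      choose v hv hv2 using h
      exact ⟨fun i => WithLp.toLp 2 fun k => v k i, pi_IsH1.2 hv, fun i => ih.2 fun k => hv2 k i⟩

theorem pi_Reg (h : S.Reg) : (S.pi κ).Reg := fun u hu k => h (u k) fun s => pi_Sob.1 (hu s) k

theorem pi_Rel (h : S.Rel) : (S.pi κ).Rel := by
  have h1 : IsCompact (closure {u : H | ‖u‖ ≤ 1 ∧ ∀ i t, ‖S.U i t u - u‖ ≤ |t|}) :=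
    h.closure.isCompact_of_isClosed isClosed_closure
  have h2 := (isCompact_univ_pi (ι := κ) fun _ => h1).image (PiLp.continuous_toLp 2 fun _ : κ => H)
  refine h2.totallyBounded.subset ?_
  rintro u ⟨hu1, hu2⟩
  refine ⟨WithLp.ofLp u, fun k _ => subset_closure ⟨(norm_apply_le_Pw u k).trans hu1,
    fun i t => ?_⟩, rfl⟩
  have h3 := (norm_apply_le_Pw _ k).trans (hu2 i t)
  rwa [PiLp.sub_apply, pi_U_apply] at h3

/-- each component is bounded by the whole gauge -/
theorem nS_cmp_le (s : ℕ) (u : (S.pi κ).A) (k : κ) : S.nS s (cmp u k) ≤ (S.pi κ).nS s u := by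
  induction s generalizing u with
  | zero => exact norm_apply_le_Pw (u : Pw κ H) k
  | succ s ih => exact add_le_add (ih u) (Finset.sum_le_sum fun i _ => ih ((S.pi κ).X i u))

/-- the whole gauge is bounded by the sum of the components -/
theorem nS_pi_le (s : ℕ) (u : (S.pi κ).A) : (S.pi κ).nS s u ≤ ∑ k, S.nS s (cmp u k) := by
  induction s generalizing u with
  | zero => exact norm_Pw_le_sum (u : Pw κ H)
  | succ s ih =>
    simp only [nS]
    rw [Finset.sum_add_distrib, Finset.sum_comm (s := (Finset.univ : Finset κ))]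
    exact add_le_add (ih u) (Finset.sum_le_sum fun i _ => ih ((S.pi κ).X i u))

end HSys

end Vale.Agent.P207.H395
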