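import Vale.Agent.P207.H546.TensA
import Vale.Agent.P207.H546.Pi
import Vale.Agent.P207.H395.Spec3
import Vale.Agent.P207.H571.L2Sys

/-!
# P207, block TENS (Hilbert space side): families of smooth functions as smooth vectors of the power
of the system; the elliptic operator; preservation of the families of type `ρ`
-/

open Filter Topology MeasureTheory Set
open scoped InnerProductSpace

noncomputable section

set_option linter.unusedSectionVars false

namespace Vale.Agent.P207.H546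

open H395 H395.HSys H442 H442.FrCalc

section Vec

variable {ι : Type} [Fintype ι] {N : Type} [TopologicalSpace N] [CompactSpace N]
  [MeasurableSpace N] [BorelSpace N] {μ : Measure N} [IsFiniteMeasure μ]
  [T2Space N] [μ.WeaklyRegular] [μ.IsOpenPosMeasure]

variable (S : NSys ι N μ) {κ κ' : Type} [Fintype κ] [Fintype κ']

/-- the Hilbert space system of families -/
abbrev Qs (S : NSys ι N μ) (κ : Type) [Fintype κ] : HSys ι (Pw κ (Lp ℝ 2 μ)) :=
  (H571.toHSys S).pi κ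

/-- families of smooth functions as smooth vectors -/
def vec (κ : Type) [Fintype κ] : (κ → S.A) ≃ₗ[ℝ] (Qs S κ).A where
  toFun f := mkA (S := H571.toHSys S) fun α => H571.cls S (f α)
  invFun u α := (H571.cls S).symm (cmp (S := H571.toHSys S) u α)
  map_add' _ _ := piA_ext (S := H571.toHSys S) fun _ => map_add (H571.cls S) _ _
  map_smul' _ _ := piA_ext (S := H571.toHSys S) fun _ => map_smul (H571.cls S) _ _
  left_inv f := funext fun α => (H571.cls S).symm_apply_apply (f α)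
  right_inv _ := piA_ext (S := H571.toHSys S) fun _ => (H571.cls S).apply_symm_apply _

variable {S}

theorem cmp_vec (f : κ → S.A) (α : κ) :
    cmp (S := H571.toHSys S) (vec S κ f) α = H571.cls S (f α) := rfl

theorem coe_vec (f : κ → S.A) (α : κ) :
    ((vec S κ f : (Qs S κ).A) : Pw κ (Lp ℝ 2 μ)) α = H571.toL μ (f α : C(N, ℝ)) := rfl

theorem exists_vec (u : (Qs S κ).A) : ∃ f : κ → S.A, vec S κ f = u := (vec S κ).surjective u

theorem vec_ext {u v : (Qs S κ).A} (h : (vec S κ).symm u = (vec S κ).symm v) : u = v :=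
  (vec S κ).symm.injective h

theorem X_vec (a : ι) (f : κ → S.A) :
    (Qs S κ).X a (vec S κ f) = vec S κ fun α => S.X a (f α) :=
  piA_ext (S := H571.toHSys S) fun α => H571.toHSys_X S a (f α)

/-- the inner product of families -/
def ipF (f g : κ → S.A) : ℝ := ∑ α, ∫ p, (f α : C(N, ℝ)) p * (g α : C(N, ℝ)) p ∂μ

theorem inner_vec (f g : κ → S.A) :
    ⟪((vec S κ f : (Qs S κ).A) : Pw κ (Lp ℝ 2 μ)), (vec S κ g : (Qs S κ).A)⟫_ℝ = ipF f g := by
  rw [PiLp.inner_apply]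
  exact Finset.sum_congr rfl fun α _ => H571.inner_toL _ _

theorem norm_vec_sq (f : κ → S.A) :
    ‖((vec S κ f : (Qs S κ).A) : Pw κ (Lp ℝ 2 μ))‖ ^ 2 = ipF f f := by
  rw [← real_inner_self_eq_norm_sq, inner_vec]

/-- each component is bounded by the gauge of the family -/
theorem hN_le_nS (s : ℕ) (f : κ → S.A) (α : κ) : S.hN s (f α) ≤ (Qs S κ).nS s (vec S κ f) := by
  rw [← H571.nS_cls]
  exact nS_cmp_le s (vec S κ f) α

/-- the gauge of the family is bounded by the sum -/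
theorem nS_le_hN (s : ℕ) (f : κ → S.A) : (Qs S κ).nS s (vec S κ f) ≤ ∑ α, S.hN s (f α) := by
  refine (nS_pi_le s (vec S κ f)).trans (le_of_eq (Finset.sum_congr rfl fun α _ => ?_))
  rw [cmp_vec, H571.nS_cls]

theorem sum_hN_le (s : ℕ) (f : κ → S.A) :
    ∑ α, S.hN s (f α) ≤ Fintype.card κ * (Qs S κ).nS s (vec S κ f) := by
  calc ∑ α, S.hN s (f α) ≤ ∑ _α : κ, (Qs S κ).nS s (vec S κ f) :=
        Finset.sum_le_sum fun α _ => hN_le_nS s f α
    _ = _ := by simp

/-! ### matrices of smooth functions -/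

/-- multiplication by a matrix of smooth functions -/
def mulMat (M : κ' → κ → S.A) : Pw κ (Lp ℝ 2 μ) →L[ℝ] Pw κ' (Lp ℝ 2 μ) :=
  matOp fun α β => H571.mulL (M α β : C(N, ℝ))

theorem mulL_mem_T (g : S.A) : H571.mulL (g : C(N, ℝ)) ∈ (H571.toHSys S).T :=
  (H571.mem_T_iff S _).2 ⟨_, g.2, rfl⟩

theorem mulMat_mem (M : κ → κ → S.A) : mulMat M ∈ (Qs S κ).T :=
  matOp_mem_piT fun α β => mulL_mem_T (M α β)

theorem mulMat_vec (M : κ' → κ → S.A) (f : κ → S.A) :
    mulMat M ((vec S κ f : (Qs S κ).A) : Pw κ (Lp ℝ 2 μ)) =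
      (vec S κ' fun α => ∑ β, M α β * f β : (Qs S κ').A) := by
  ext1 α
  rw [mulMat, matOp_apply, coe_vec]
  simp only [coe_vec, H571.mulL_toL]
  rw [← map_sum]
  congr 1
  rw [AddSubmonoidClass.coe_finsetSum]
  rfl

theorem mulMat_inner (M : κ' → κ → S.A) (u : Pw κ (Lp ℝ 2 μ)) (v : Pw κ' (Lp ℝ 2 μ)) :
    ⟪mulMat M u, v⟫_ℝ = ⟪u, mulMat (fun α β => M β α) v⟫_ℝ := by
  simp only [PiLp.inner_apply, mulMat, matOp_apply, sum_inner, inner_sum, H571.inner_mulL]
  rw [Finset.sum_comm]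

theorem mulMat_add (M M' : κ' → κ → S.A) (u : Pw κ (Lp ℝ 2 μ)) :
    mulMat (fun α β => M α β + M' α β) u = mulMat M u + mulMat M' u := by
  ext1 α
  have h1 : ∀ x y : C(N, ℝ), H571.mulL (μ := μ) (x + y) = H571.mulL x + H571.mulL y :=
    fun x y => map_add (H571.mulHom (μ := μ)) x y
  simp only [mulMat, PiLp.add_apply, matOp_apply]
  rw [← Finset.sum_add_distrib]
  refine Finset.sum_congr rfl fun β _ => ?_
  rw [Subalgebra.coe_add, h1]
  rfl

theorem mulMat_scalar [DecidableEq κ] (c : ℝ) (u : Pw κ (Lp ℝ 2 μ)) :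
    mulMat (S := S) (fun α β => algebraMap ℝ S.A (if α = β then c else 0)) u = c • u := by
  ext1 α
  have h1 : ∀ x : ℝ, H571.mulL (μ := μ) ((algebraMap ℝ S.A x : S.A) : C(N, ℝ)) =
      x • (1 : Lp ℝ 2 μ →L[ℝ] Lp ℝ 2 μ) := by
    intro x
    have h2 := (H571.mulHom (N := N) (μ := μ)).commutes x
    rw [H571.mulHom_apply] at h2
    rw [Algebra.algebraMap_eq_smul_one (R := ℝ) (A := (Lp ℝ 2 μ →L[ℝ] Lp ℝ 2 μ))] at h2
    exact h2
  simp only [mulMat, PiLp.smul_apply, matOp_apply, h1]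
  rw [Finset.sum_eq_single α]
  · simp
  · intro β _ hβ
    rw [if_neg (Ne.symm hβ)]
    simp
  · intro h; exact absurd (Finset.mem_univ α) h

end Vec

section Rho

variable {n : ℕ} {N : Type} [TopologicalSpace N] [CompactSpace N]
  [MeasurableSpace N] [BorelSpace N] {μ : Measure N} [IsFiniteMeasure μ]
  [T2Space N] [μ.WeaklyRegular] [μ.IsOpenPosMeasure]

/-- compatibility of the system of flows and the frame calculus -/
structure Cpt (S : NSys (Fin n ⊕ (Fin n × Fin n)) N μ) (C : FrCalc n S.A) : Prop where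
  hor : ∀ i f, S.X (.inl i) f = C.H i f
  ver : ∀ a b f, S.X (.inr (a, b)) f = C.V a b f

variable {S : NSys (Fin n ⊕ (Fin n × Fin n)) N μ} {C : FrCalc n S.A}
  {κ κ' : Type} [Fintype κ] [Fintype κ'] [DecidableEq κ] [DecidableEq κ']

variable (C) in
/-- the zero order term as an operator -/
def Brho (ρ : Fin n → Fin n → Matrix κ κ ℝ) (c : ℝ) : Pw κ (Lp ℝ 2 μ) →L[ℝ] Pw κ (Lp ℝ 2 μ) :=
  mulMat (S := S) (Bt C ρ c)

theorem brho_mem (ρ : Fin n → Fin n → Matrix κ κ ℝ) (c : ℝ) : Brho C ρ c ∈ (Qs S κ).T :=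
  mulMat_mem _

theorem brho_symm {ρ : Fin n → Fin n → Matrix κ κ ℝ} (hρ : IsRep ρ) (c : ℝ)
    (u v : Pw κ (Lp ℝ 2 μ)) : ⟪Brho C ρ c u, v⟫_ℝ = ⟪u, Brho C ρ c v⟫_ℝ := by
  rw [Brho, mulMat_inner]
  congr 3
  funext α β
  exact Bt_symm hρ c β α

/-- **positivity for large constants** -/
theorem exists_pos {ρ : Fin n → Fin n → Matrix κ κ ℝ} (hρ : IsRep ρ) :
    ∃ c₁ : ℝ, 0 ≤ c₁ ∧ ∀ c, c₁ ≤ c → Pos (Brho C ρ c) := by
  let B' : Pw κ (Lp ℝ 2 μ) →L[ℝ] Pw κ (Lp ℝ 2 μ) :=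
    mulMat (S := S) fun α β => C.Bm ρ α β + algebraMap ℝ S.A (casM ρ α β)
  refine ⟨‖B'‖, norm_nonneg _, fun c hc => ⟨brho_symm hρ c, fun u => ?_⟩⟩
  have h1 : Brho C ρ c u = c • u + B' u := by
    rw [← mulMat_scalar (S := S) c u, ← mulMat_add]
    rfl
  rw [h1, inner_add_left, real_inner_smul_left, real_inner_self_eq_norm_sq]
  have h2 : |⟪B' u, u⟫_ℝ| ≤ ‖B'‖ * ‖u‖ * ‖u‖ :=
    (abs_real_inner_le_norm _ _).trans
      (mul_le_mul_of_nonneg_right (B'.le_opNorm u) (norm_nonneg _))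
  have h3 := (abs_le.1 h2).1
  nlinarith [sq_nonneg ‖u‖]

/-- **the elliptic operator on families** -/
theorem lap_vec (hC : Cpt S C) (ρ : Fin n → Fin n → Matrix κ κ ℝ) (c : ℝ) (f : κ → S.A) :
    (Qs S κ).lap (brho_mem (C := C) ρ c) (vec S κ f) = vec S κ fun α => lapF C ρ c f α := by
  apply Subtype.ext
  rw [coe_lap]
  have h1 : ∀ a, (Qs S κ).X a ((Qs S κ).X a (vec S κ f)) =
      vec S κ fun α => S.X a (S.X a (f α)) := by
    intro a
    rw [X_vec, X_vec]
  simp only [h1]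
  rw [Brho, mulMat_vec, ← AddSubmonoidClass.coe_finsetSum, ← map_sum, ← Submodule.coe_sub,
    ← Submodule.coe_add, ← map_sub, ← map_add]
  congr 2
  funext α
  simp only [Pi.add_apply, Pi.sub_apply, Finset.sum_apply]
  rw [Fintype.sum_sum_type, Fintype.sum_prod_type]
  simp only [hC.hor, hC.ver]
  rfl

/-- on families of type `ρ` the elliptic operator is `1 + c - cas` -/
theorem lap_fam (hC : Cpt S C) {ρ : Fin n → Fin n → Matrix κ κ ℝ} (c : ℝ) {f : κ → S.A}
    (hf : C.IsFam ρ f) : (Qs S κ).lap (brho_mem (C := C) ρ c) (vec S κ f) =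
      vec S κ fun α => (1 + c) • f α - C.cas (f α) := by
  rw [lap_vec hC]
  congr 1
  funext α
  exact lapF_fam c hf α

/-- operators on families as operators on smooth vectors -/
def lift (L : (κ → S.A) →ₗ[ℝ] (κ' → S.A)) : (Qs S κ).A →ₗ[ℝ] (Qs S κ').A :=
  (vec S κ').toLinearMap ∘ₗ L ∘ₗ (vec S κ).symm.toLinearMap

@[simp] theorem lift_vec (L : (κ → S.A) →ₗ[ℝ] (κ' → S.A)) (f : κ → S.A) :
    lift L (vec S κ f) = vec S κ' (L f) := by
  change vec S κ' (L ((vec S κ).symm (vec S κ f))) = _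
  rw [LinearEquiv.symm_apply_apply]

/-- operators with a formal adjoint which commute with the elliptic operators are natural -/
theorem nat_lift (hC : Cpt S C) {ρ : Fin n → Fin n → Matrix κ κ ℝ}
    {ρ' : Fin n → Fin n → Matrix κ' κ' ℝ} {c c' : ℝ} {L : (κ → S.A) →ₗ[ℝ] (κ' → S.A)}
    {L' : (κ' → S.A) → (κ → S.A)} (hL' : ∀ f g, ipF (L f) g = ipF f (L' g))
    (hL : ∀ f, L (fun α => lapF C ρ c f α) = fun α => lapF C ρ' c' (L f) α) :
    (Qs S κ).Nat (brho_mem (C := C) ρ c) (brho_mem (C := C) ρ' c') (lift L) := by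
  refine ⟨⟨fun v => vec S κ (L' ((vec S κ').symm v)), fun u v => ?_⟩, fun u => ?_⟩
  · obtain ⟨f, rfl⟩ := exists_vec u
    obtain ⟨g, rfl⟩ := exists_vec v
    have h0 : (vec S κ').symm (vec S κ' g) = g := LinearEquiv.symm_apply_apply _ _
    dsimp only
    rw [h0, lift_vec, inner_vec, inner_vec, hL']
  · obtain ⟨f, rfl⟩ := exists_vec u
    rw [lap_vec hC, lift_vec, lift_vec, lap_vec hC, hL]

variable (C) in
/-- the defect of equivariance as a linear operator -/
def WdL (ρ : Fin n → Fin n → Matrix κ κ ℝ) (a b : Fin n) : (κ → S.A) →ₗ[ℝ] (κ → S.A) where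
  toFun f := Wd C ρ a b f
  map_add' f g := by
    funext α
    simp only [Wd, Pi.add_apply, map_add, smul_add, Finset.sum_add_distrib]
    abel
  map_smul' r f := by
    funext α
    simp only [Wd, Pi.smul_apply, Derivation.map_smul, RingHom.id_apply, smul_sub,
      Finset.smul_sum]
    congr 1
    exact Finset.sum_congr rfl fun β _ => smul_comm _ _ _

theorem WdL_apply (ρ : Fin n → Fin n → Matrix κ κ ℝ) (a b : Fin n) (f : κ → S.A) :
    WdL C ρ a b f = Wd C ρ a b f := rfl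

/-- the defect of equivariance is formally skew -/
theorem ipF_Wd (hC : Cpt S C) {ρ : Fin n → Fin n → Matrix κ κ ℝ} (hρ : IsRep ρ) (a b : Fin n)
    (f g : κ → S.A) : ipF (Wd C ρ a b f) g = ipF f (-Wd C ρ a b g) := by
  have h1 : ∀ α, ∫ p, (C.V a b (f α) : C(N, ℝ)) p * (g α : C(N, ℝ)) p ∂μ =
      -∫ p, (f α : C(N, ℝ)) p * (C.V a b (g α) : C(N, ℝ)) p ∂μ := by
    intro α
    have h := H571.skew_toL S (.inr (a, b)) (f α) (g α)
    rw [H571.inner_toL, H571.inner_toL, hC.ver, hC.ver] at h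
    exact h
  have hint : ∀ x y : S.A, Integrable (fun p => (x : C(N, ℝ)) p * (y : C(N, ℝ)) p) μ := fun x y =>
    ((x : C(N, ℝ)) * (y : C(N, ℝ))).continuous.integrable_of_hasCompactSupport
      (HasCompactSupport.of_compactSpace _)
  have e1 : ∀ α, ∫ p, ((Wd C ρ a b f α : S.A) : C(N, ℝ)) p * (g α : C(N, ℝ)) p ∂μ =
      (∫ p, (C.V a b (f α) : C(N, ℝ)) p * (g α : C(N, ℝ)) p ∂μ) -
      ∑ β, ρ a b α β * ∫ p, (f β : C(N, ℝ)) p * (g α : C(N, ℝ)) p ∂μ := by
    intro α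
    have e2 : ∀ p, ((Wd C ρ a b f α : S.A) : C(N, ℝ)) p * (g α : C(N, ℝ)) p =
        (C.V a b (f α) : C(N, ℝ)) p * (g α : C(N, ℝ)) p -
        ∑ β, ρ a b α β * ((f β : C(N, ℝ)) p * (g α : C(N, ℝ)) p) := by
      intro p
      simp only [Wd, Subalgebra.coe_sub, ContinuousMap.sub_apply, AddSubmonoidClass.coe_finsetSum,
        ContinuousMap.coe_sum, Finset.sum_apply, Subalgebra.coe_smul, ContinuousMap.coe_smul,
        Pi.smul_apply, smul_eq_mul]
      rw [sub_mul, Finset.sum_mul]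
      congr 1
      exact Finset.sum_congr rfl fun β _ => by ring
    simp only [e2]
    rw [integral_sub (hint _ _) (integrable_finsetSum _ fun β _ => (hint _ _).const_mul _),
      integral_finsetSum _ fun β _ => (hint _ _).const_mul _]
    congr 1
    exact Finset.sum_congr rfl fun β _ => integral_const_mul _ _
  have e3 : ∀ α, ∫ p, (f α : C(N, ℝ)) p * (((-Wd C ρ a b g) α : S.A) : C(N, ℝ)) p ∂μ =
      -(∫ p, (f α : C(N, ℝ)) p * (C.V a b (g α) : C(N, ℝ)) p ∂μ) +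
      ∑ β, ρ a b α β * ∫ p, (f α : C(N, ℝ)) p * (g β : C(N, ℝ)) p ∂μ := by
    intro α
    have e2 : ∀ p, (f α : C(N, ℝ)) p * (((-Wd C ρ a b g) α : S.A) : C(N, ℝ)) p =
        (∑ β, ρ a b α β * ((f α : C(N, ℝ)) p * (g β : C(N, ℝ)) p)) -
        (f α : C(N, ℝ)) p * (C.V a b (g α) : C(N, ℝ)) p := by
      intro p
      simp only [Wd, Pi.neg_apply, Subalgebra.coe_neg, ContinuousMap.neg_apply,
        Subalgebra.coe_sub, ContinuousMap.sub_apply, AddSubmonoidClass.coe_finsetSum,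
        ContinuousMap.coe_sum, Finset.sum_apply, Subalgebra.coe_smul, ContinuousMap.coe_smul,
        Pi.smul_apply, smul_eq_mul]
      rw [mul_neg, mul_sub, Finset.mul_sum, neg_sub]
      congr 1
      exact Finset.sum_congr rfl fun β _ => by ring
    simp only [e2]
    rw [integral_sub (integrable_finsetSum _ fun β _ => (hint _ _).const_mul _) (hint _ _),
      integral_finsetSum _ fun β _ => (hint _ _).const_mul _, sub_eq_neg_add]
    congr 1
    exact Finset.sum_congr rfl fun β _ => integral_const_mul _ _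
  unfold ipF
  simp only [e1, e3, h1, Finset.sum_sub_distrib, Finset.sum_add_distrib, Finset.sum_neg_distrib]
  have e4 : ∑ α, ∑ β, ρ a b α β * ∫ p, (f β : C(N, ℝ)) p * (g α : C(N, ℝ)) p ∂μ =
      -∑ α, ∑ β, ρ a b α β * ∫ p, (f α : C(N, ℝ)) p * (g β : C(N, ℝ)) p ∂μ := by
    rw [Finset.sum_comm, ← Finset.sum_neg_distrib]
    refine Finset.sum_congr rfl fun α _ => ?_
    rw [← Finset.sum_neg_distrib]
    refine Finset.sum_congr rfl fun β _ => ?_
    have h2 : ρ a b β α = -ρ a b α β := by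
      have h := congrFun (congrFun (hρ.skew a b) α) β
      exact h
    rw [h2]
    ring
  rw [e4]
  ring

/-- **the defects of equivariance are natural** -/
theorem nat_W (hC : Cpt S C) {ρ : Fin n → Fin n → Matrix κ κ ℝ} (hρ : IsRep ρ) (c : ℝ)
    (a b : Fin n) :
    (Qs S κ).Nat (brho_mem (C := C) ρ c) (brho_mem (C := C) ρ c) (lift (WdL C ρ a b)) := by
  refine nat_lift hC (L' := fun g => -Wd C ρ a b g) (ipF_Wd hC hρ a b) fun f => ?_
  funext α
  exact Wd_lapF hρ c a b f α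

/-- `vec f` is a family of type `ρ` iff all defects vanish -/
theorem isFam_iff_lift {ρ : Fin n → Fin n → Matrix κ κ ℝ} {f : κ → S.A} :
    C.IsFam ρ f ↔ ∀ a b, lift (WdL C ρ a b) (vec S κ f) = 0 := by
  rw [isFam_iff]
  refine forall_congr' fun a => forall_congr' fun b => ?_
  rw [lift_vec, WdL_apply]
  constructor
  · intro h; rw [h, map_zero]
  · intro h; exact (vec S κ).map_eq_zero_iff.1 h

/-- the spectral projections preserve the families of type `ρ` -/
theorem isFam_projA (hC : Cpt S C) {ρ : Fin n → Fin n → Matrix κ κ ℝ} (hρ : IsRep ρ) {c : ℝ}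
    (hG : (Qs S κ).Reg) (hB : Pos (Brho C ρ c)) (l : ℝ) {f : κ → S.A} (hf : C.IsFam ρ f) :
    C.IsFam ρ ((vec S κ).symm ((Qs S κ).projA hG hB (brho_mem ρ c) l (vec S κ f))) := by
  rw [isFam_iff_lift] at hf ⊢
  intro a b
  rw [LinearEquiv.apply_symm_apply,
    (nat_W hC hρ c a b).projA hB (brho_mem ρ c) hG hG hB (brho_mem ρ c) l, hf a b]
  apply Subtype.ext
  rw [coe_projA]
  simp

/-- the resolvent preserves the families of type `ρ` -/
theorem isFam_resA (hC : Cpt S C) {ρ : Fin n → Fin n → Matrix κ κ ℝ} (hρ : IsRep ρ) {c : ℝ}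
    (hG : (Qs S κ).Reg) (hB : Pos (Brho C ρ c)) {f : κ → S.A} (hf : C.IsFam ρ f) :
    C.IsFam ρ ((vec S κ).symm ((Qs S κ).resA hG hB (brho_mem ρ c) (vec S κ f))) := by
  rw [isFam_iff_lift] at hf ⊢
  intro a b
  rw [LinearEquiv.apply_symm_apply,
    (nat_W hC hρ c a b).resA hG hB hG hB, hf a b]
  apply Subtype.ext
  rw [coe_resA]
  simp

/-- finite spectral sums preserve the families of type `ρ` -/
theorem isFam_fc (hC : Cpt S C) {ρ : Fin n → Fin n → Matrix κ κ ℝ} (hρ : IsRep ρ) {c : ℝ}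
    (hG : (Qs S κ).Reg) (hB : Pos (Brho C ρ c)) (F : Finset ℝ) (x : ℝ → ℝ) {f : κ → S.A}
    (hf : C.IsFam ρ f) :
    C.IsFam ρ ((vec S κ).symm ((Qs S κ).fc hB (brho_mem ρ c) hG F x (vec S κ f))) := by
  rw [isFam_iff_lift] at hf ⊢
  intro a b
  rw [LinearEquiv.apply_symm_apply,
    (nat_W hC hρ c a b).fc hB (brho_mem ρ c) hG hG hB (brho_mem ρ c) F x, hf a b]
  unfold HSys.fc
  refine Finset.sum_eq_zero fun l _ => ?_
  have h0 : (Qs S κ).projA hG hB (brho_mem ρ c) l 0 = 0 := by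
    apply Subtype.ext
    rw [coe_projA]
    simp
  rw [h0, smul_zero]

end Rho

end Vale.Agent.P207.H546
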