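import Vale.Agent.P207.H395.SSp
import Vale.Agent.P207.H824.PosA

/-!
# P207: the analytic facts `Ana` from the spectral theory `SSp`

`FamSp C I h Q J`: the spectral space `Q : SSp E` is a space of families of functions (via `J`),
`L = -cas`, with the `L²` product; its norms control the norms `h s` of the components.
-/

set_option linter.unusedSectionVars false

noncomputable section

namespace Vale.Agent.P207.H546

open Finset H442 H442.FrCalc H571 H824 H395

section Abstract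

variable {E : Type*} [AddCommGroup E] [Module ℝ E] (Q : SSp E)

theorem Lam_eig {l : ℝ} {x : E} (hx : Q.L x = l • x) : Q.Lam x = (l + Q.b + 1) • x := by
  rw [SSp.Lam_apply, hx, ← add_smul]
  congr 1
  ring

theorem Lam_iter_sum (j : ℕ) (F : Finset ℝ) (w : ℝ → E) (hw : ∀ l ∈ F, Q.L (w l) = l • w l) :
    Q.Lam^[j] (∑ l ∈ F, w l) = ∑ l ∈ F, (l + Q.b + 1) ^ j • w l := by
  induction j with
  | zero => simp
  | succ j ih =>
    rw [Function.iterate_succ_apply', ih, map_sum]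
    refine Finset.sum_congr rfl fun l hl => ?_
    rw [map_smul, Lam_eig Q (hw l hl), smul_smul, pow_succ]

theorem ip_sum_eig (F : Finset ℝ) (a : ℝ → ℝ) (w : ℝ → E) (hw : ∀ l ∈ F, Q.L (w l) = l • w l) :
    Q.ip (∑ l ∈ F, a l • w l) (∑ l ∈ F, a l • w l) = ∑ l ∈ F, a l ^ 2 * Q.ip (w l) (w l) := by
  simp only [map_sum, LinearMap.sum_apply, map_smul, LinearMap.smul_apply, smul_eq_mul]
  refine Finset.sum_congr rfl fun l hl => ?_
  rw [Finset.sum_eq_single l]
  · ring
  · intro l' hl' hne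
    rw [Q.ip_eig hne (hw l' hl') (hw l hl)]
    ring
  · intro h; exact absurd hl h

/-- **the elliptic estimate for finite sums of eigenvectors** -/
theorem nm_sum_eig (s : ℕ) : ∃ K : ℝ, 0 ≤ K ∧ ∀ (F : Finset ℝ) (w : ℝ → E),
    (∀ l ∈ F, Q.L (w l) = l • w l) →
      Q.nm s (∑ l ∈ F, w l) ≤ K * Real.sqrt (∑ l ∈ F, (1 + l ^ 2) ^ s * Q.ip (w l) (w l)) := by
  obtain ⟨c, hc, hcx⟩ := Q.exists_nm_le_Lam s
  set D : ℝ := 2 * (1 + (Q.b + 1) ^ 2) with hD
  have hD0 : 0 ≤ D := by positivity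
  refine ⟨c * Real.sqrt (D ^ s), by positivity, fun F w hw => ?_⟩
  have h1 : Q.nm s (∑ l ∈ F, w l) ≤ c * Q.nm 0 (Q.Lam^[s] (∑ l ∈ F, w l)) :=
    (Q.nm_mono (by omega) _).trans (hcx _)
  refine h1.trans ?_
  rw [mul_assoc]
  refine mul_le_mul_of_nonneg_left ?_ hc
  rw [Lam_iter_sum Q s F w hw, Q.nm_zero_eq, ip_sum_eig Q F _ w hw,
    ← Real.sqrt_mul (by positivity : (0 : ℝ) ≤ D ^ s)]
  refine Real.sqrt_le_sqrt ?_
  rw [Finset.mul_sum]
  refine Finset.sum_le_sum fun l _ => ?_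
  rw [← mul_assoc]
  refine mul_le_mul_of_nonneg_right ?_ (Q.ip_self_nonneg _)
  rw [← mul_pow, ← pow_mul, mul_comm s 2, pow_mul]
  refine pow_le_pow_left₀ (sq_nonneg _) ?_ s
  rw [hD]
  nlinarith [sq_nonneg (l - (Q.b + 1)), sq_nonneg l, sq_nonneg (Q.b + 1),
    mul_nonneg (sq_nonneg l) (sq_nonneg (Q.b + 1))]

end Abstract

section Fam

variable {n : ℕ} {A : Type*} [CommRing A] [Algebra ℝ A] {C : FrCalc n A} {I : A →ₗ[ℝ] ℝ}
  {h : ℕ → A → ℝ} {E : Type*} [AddCommGroup E] [Module ℝ E] {Q : SSp E}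
  {κ : Type*} [Fintype κ] {J : E →ₗ[ℝ] (κ → A)}

variable (C I h Q J) in
/-- a spectral space of families of functions -/
structure FamSp : Prop where
  ip : ∀ w u, Q.ip w u = ∑ α, I (J w α * J u α)
  L : ∀ w α, J (Q.L w) α = - C.cas (J w α)
  h_le : ∀ s, ∃ K : ℝ, 0 ≤ K ∧ ∀ w α, h s (J w α) ≤ K * Q.nm s w

/-- Cauchy–Schwarz -/
theorem cs_I (hpos : ∀ f : A, 0 ≤ I (f * f)) (f g : A) :
    I (f * g) ^ 2 ≤ I (f * f) * I (g * g) := by
  have key : ∀ t : ℝ, 0 ≤ I (f * f) - 2 * t * I (f * g) + t ^ 2 * I (g * g) := by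
    intro t
    have h1 := hpos (f - t • g)
    have h2 : (f - t • g) * (f - t • g) = f * f - (2 * t) • (f * g) + (t ^ 2) • (g * g) := by
      simp only [sub_mul, mul_sub, smul_mul_assoc, mul_smul_comm, smul_smul, mul_comm g f]
      module
    rw [h2, map_add, map_sub, map_smul, map_smul, smul_eq_mul, smul_eq_mul] at h1
    exact h1
  rcases (hpos g).eq_or_lt with h0 | h0
  · have hb : I (f * g) = 0 := by
      by_contra hb
      have h1 := key ((I (f * f) + 1) / (2 * I (f * g)))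
      rw [← h0] at h1
      have h2 : 2 * ((I (f * f) + 1) / (2 * I (f * g))) * I (f * g) = I (f * f) + 1 := by
        field_simp
      rw [h2] at h1
      linarith
    rw [hb, ← h0]
    simp
  · have h1 := key (I (f * g) / I (g * g))
    have h2 : I (f * f) - 2 * (I (f * g) / I (g * g)) * I (f * g) +
        (I (f * g) / I (g * g)) ^ 2 * I (g * g) =
        (I (f * f) * I (g * g) - I (f * g) ^ 2) / I (g * g) := by
      field_simp
      ring
    rw [h2] at h1
    have h3 := (div_nonneg_iff.1 h1).resolve_right (fun h => absurd h.2 (not_le.2 h0))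
    linarith [h3.1]

namespace FamSp

variable (F : FamSp C I h Q J)
include F

theorem inj : Function.Injective J := by
  rw [injective_iff_map_eq_zero]
  intro x hx
  apply Q.pos
  rw [F.ip, hx]
  simp

theorem eig_iff {l : ℝ} {x : E} : Q.L x = l • x ↔ ∀ α, C.cas (J x α) = (-l) • J x α := by
  constructor
  · intro hx α
    have h1 := F.L x α
    rw [hx, map_smul, Pi.smul_apply] at h1
    rw [neg_smul, h1, neg_neg]
  · intro hx
    apply F.inj
    funext α
    rw [F.L, hx, map_smul, Pi.smul_apply, neg_smul, neg_neg]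

theorem cas_P (l : ℝ) (x : E) (α : κ) : C.cas (J (Q.P l x) α) = (-l) • J (Q.P l x) α :=
  F.eig_iff.1 (Q.L_P l x) α

/-- the components are bounded in `L²` -/
theorem I_sq_le (hpos : ∀ f : A, 0 ≤ I (f * f)) (x : E) (α : κ) :
    I (J x α * J x α) ≤ Q.nm 0 x ^ 2 := by
  rw [Q.nm_zero, F.ip]
  exact Finset.single_le_sum (f := fun α => I (J x α * J x α)) (fun β _ => hpos _)
    (Finset.mem_univ α)

/-- **orthogonality of the remainder to all eigenfunctions** -/
theorem orth (hI : C.IsInt I) (hpos : ∀ f : A, 0 ≤ I (f * f)) {l : ℝ} {x : E}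
    (hx : Q.P l x = 0) (α : κ) : Orth C I (-l) (J x α) := by
  intro w hw
  have hw' : C.cas w = (-l) • w := hw
  set c : ℝ := Real.sqrt (I (w * w)) with hc
  have hc0 : 0 ≤ c := Real.sqrt_nonneg _
  have hφ : ∀ y : E, |I (J y α * w)| ≤ c * Q.nm 0 y := by
    intro y
    have h1 := cs_I hpos (J y α) w
    have h2 := F.I_sq_le hpos y α
    have h3 : I (J y α * w) ^ 2 ≤ (c * Q.nm 0 y) ^ 2 := by
      rw [mul_pow, hc, Real.sq_sqrt (hpos w)]
      calc _ ≤ I (J y α * J y α) * I (w * w) := h1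
        _ ≤ Q.nm 0 y ^ 2 * I (w * w) := mul_le_mul_of_nonneg_right h2 (hpos w)
        _ = _ := mul_comm _ _
    exact abs_le_of_sq_le_sq' h3 (mul_nonneg hc0 (Q.nm_nonneg 0 y)) |> abs_le.2
  have h0 : ∀ l', I (J (Q.P l' x) α * w) = 0 := by
    intro l'
    by_cases e : l' = l
    · rw [e, hx, map_zero]
      simp
    · exact hI.orth (F.cas_P l' x α) hw' (fun h => e (neg_injective h))
  by_contra hne
  have ha : 0 < |I (J x α * w)| := abs_pos.2 hne
  obtain ⟨F0, hF⟩ := Q.conv 0 x (|I (J x α * w)| / (c + 1)) (by positivity)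
  have h1 := hF F0 subset_rfl
  have h2 : I (J x α * w) = I (J (x - ∑ l ∈ F0, Q.P l x) α * w) := by
    rw [map_sub, map_sum, Pi.sub_apply, Finset.sum_apply, sub_mul, map_sub, Finset.sum_mul,
      map_sum, Finset.sum_eq_zero fun l' _ => h0 l', sub_zero]
  have h3 : |I (J x α * w)| ≤ c * (|I (J x α * w)| / (c + 1)) := by
    conv_lhs => rw [h2]
    exact (hφ _).trans (mul_le_mul_of_nonneg_left h1.le hc0)
  rw [← mul_div_assoc, le_div_iff₀ (by positivity)] at h3
  nlinarith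

end FamSp

/-! ### the analytic facts -/

variable {TT : Submodule ℝ (Fin n → Fin n → A)} {VV : Submodule ℝ (Fin n → A)}
  {E₁ E₂ : Type*} [AddCommGroup E₁] [Module ℝ E₁] [AddCommGroup E₂] [Module ℝ E₂]
  {Q₁ : SSp E₁} {Q₂ : SSp E₂} {J₁ : E₁ →ₗ[ℝ] (Fin n → A)} {J₂ : E₂ →ₗ[ℝ] (Fin n × Fin n → A)}

/-- **the analytic facts from the spectral theory** -/
theorem anaS (hI : C.IsInt I) (hpos : ∀ f : A, 0 ≤ I (f * f))
    (F₁ : FamSp C I h Q₁ J₁) (F₂ : FamSp C I h Q₂ J₂)
    (hT1 : ∀ w ∈ VV, C.T1 w) (hT2 : ∀ k ∈ TT, C.T2 k) (hs : ∀ k ∈ TT, ∀ i j, k i j = k j i)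
    (hV : ∀ w ∈ VV, ∃ x, J₁ x = w) (hV' : ∀ x, J₁ x ∈ VV)
    (hT : ∀ k ∈ TT, ∃ x, ∀ i j, J₂ x (i, j) = k i j) (hT' : ∀ x, (fun i j => J₂ x (i, j)) ∈ TT) :
    Ana C I h TT VV where
  spec k hk ε hε := by
    obtain ⟨x, hx⟩ := hT k hk
    obtain ⟨F, hF⟩ := Q₂.conv 0 x (Real.sqrt ε) (Real.sqrt_pos.2 hε)
    have hF' := hF F subset_rfl
    have hsub : k - ∑ l ∈ F, (fun i j => J₂ (Q₂.P l x) (i, j)) =
        fun i j => J₂ (x - ∑ l ∈ F, Q₂.P l x) (i, j) := by
      funext i j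
      rw [map_sub, map_sum]
      simp only [Pi.sub_apply, Finset.sum_apply, hx]
    refine ⟨F, fun l i j => J₂ (Q₂.P l x) (i, j), fun l _ => ⟨hT' _, hT2 _ (hT' _), hs _ (hT' _),
      fun i j => F₂.cas_P l x (i, j)⟩, fun l hl i j => ?_, ?_⟩
    · rw [hsub]
      refine F₂.orth hI hpos ?_ (i, j)
      rw [map_sub, map_sum, Finset.sum_eq_single l, Q₂.P_P, sub_self]
      · intro l' _ hne
        exact Q₂.P_P_ne hne.symm x
      · intro h; exact absurd hl h
    · rw [hsub, B2_apply]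
      have h1 : Q₂.ip (x - ∑ l ∈ F, Q₂.P l x) (x - ∑ l ∈ F, Q₂.P l x) ≤ ε := by
        rw [← Q₂.nm_zero, ← Real.sq_sqrt hε.le]
        exact pow_le_pow_left₀ (Q₂.nm_nonneg _ _) hF'.le 2
      rw [F₂.ip, Fintype.sum_prod_type] at h1
      exact h1
  fd1 l := by
    have := Q₁.finiteDimensional_eig l
    have hmem : ∀ x : LinearMap.ker (Q₁.L - l • LinearMap.id),
        J₁ (x : E₁) ∈ (VV ⊓ E1 C (-l) : Submodule ℝ (Fin n → A)) := by
      intro x
      have h1 : Q₁.L (x : E₁) = l • (x : E₁) := by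
        have h2 := x.2
        rw [LinearMap.mem_ker, LinearMap.sub_apply, LinearMap.smul_apply, LinearMap.id_apply,
          sub_eq_zero] at h2
        exact h2
      exact ⟨hV' _, hT1 _ (hV' _), F₁.eig_iff.1 h1⟩
    let f : LinearMap.ker (Q₁.L - l • LinearMap.id) →ₗ[ℝ]
        (VV ⊓ E1 C (-l) : Submodule ℝ (Fin n → A)) :=
      { toFun := fun x => ⟨J₁ (x : E₁), hmem x⟩
        map_add' := fun x y => Subtype.ext (by simp)
        map_smul' := fun c x => Subtype.ext (by simp) }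
    refine Module.Finite.of_surjective f fun w => ?_
    obtain ⟨x, hx⟩ := hV _ w.2.1
    refine ⟨⟨x, ?_⟩, Subtype.ext hx⟩
    rw [LinearMap.mem_ker, LinearMap.sub_apply, LinearMap.smul_apply, LinearMap.id_apply,
      sub_eq_zero, F₁.eig_iff]
    intro i
    rw [hx]
    exact w.2.2.2 i
  fd2 l := by
    have := Q₂.finiteDimensional_eig l
    have hmem : ∀ x : LinearMap.ker (Q₂.L - l • LinearMap.id),
        (fun i j => J₂ (x : E₂) (i, j)) ∈
          (TT ⊓ E2 C (-l) : Submodule ℝ (Fin n → Fin n → A)) := by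
      intro x
      have h1 : Q₂.L (x : E₂) = l • (x : E₂) := by
        have h2 := x.2
        rw [LinearMap.mem_ker, LinearMap.sub_apply, LinearMap.smul_apply, LinearMap.id_apply,
          sub_eq_zero] at h2
        exact h2
      exact ⟨hT' _, hT2 _ (hT' _), hs _ (hT' _), fun i j => F₂.eig_iff.1 h1 (i, j)⟩
    let f : LinearMap.ker (Q₂.L - l • LinearMap.id) →ₗ[ℝ]
        (TT ⊓ E2 C (-l) : Submodule ℝ (Fin n → Fin n → A)) :=
      { toFun := fun x => ⟨fun i j => J₂ (x : E₂) (i, j), hmem x⟩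
        map_add' := fun x y => Subtype.ext (by funext i j; simp)
        map_smul' := fun c x => Subtype.ext (by funext i j; simp) }
    refine Module.Finite.of_surjective f fun w => ?_
    obtain ⟨x, hx⟩ := hT _ w.2.1
    refine ⟨⟨x, ?_⟩, Subtype.ext (by funext i j; exact hx i j)⟩
    rw [LinearMap.mem_ker, LinearMap.sub_apply, LinearMap.smul_apply, LinearMap.id_apply,
      sub_eq_zero, F₂.eig_iff]
    rintro ⟨i, j⟩
    rw [hx]
    exact w.2.2.2.2 i j
  disc R := by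
    refine (Q₂.finite_spec R).subset ?_
    rintro l ⟨hl, k, hk, hk0⟩
    obtain ⟨x, hx⟩ := hT k hk.1
    have h1 : Q₂.L x = l • x := by
      rw [F₂.eig_iff]
      rintro ⟨i, j⟩
      rw [hx]
      exact hk.2.2.2 i j
    refine ⟨hl.le, x, ?_⟩
    rw [Q₂.P_eig l x h1]
    rintro rfl
    apply hk0
    funext i j
    rw [← hx]
    simp
  ell1 s := by
    obtain ⟨K, hK, h1⟩ := nm_sum_eig Q₁ s
    obtain ⟨K', hK', h2⟩ := F₁.h_le s
    refine ⟨K' * K, by positivity, fun F w hw i => ?_⟩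
    have h3 : ∀ l, ∃ x, l ∈ F → J₁ x = w l := by
      intro l
      by_cases hl : l ∈ F
      · obtain ⟨x, hx⟩ := hV _ (hw l hl).1
        exact ⟨x, fun _ => hx⟩
      · exact ⟨0, fun h => absurd h hl⟩
    choose x hx using h3
    have h4 : ∀ l ∈ F, Q₁.L (x l) = l • x l := by
      intro l hl
      rw [F₁.eig_iff]
      intro i
      rw [hx l hl]
      exact (hw l hl).2.2 i
    have h5 : ∑ l ∈ F, w l = J₁ (∑ l ∈ F, x l) := by
      rw [map_sum]
      exact Finset.sum_congr rfl fun l hl => (hx l hl).symm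
    rw [h5]
    refine (h2 _ i).trans ?_
    rw [mul_assoc]
    refine mul_le_mul_of_nonneg_left ((h1 F x h4).trans (le_of_eq ?_)) hK'
    congr 2
    refine Finset.sum_congr rfl fun l hl => ?_
    rw [F₁.ip, hx l hl, B1_apply]
  ell2 s := by
    obtain ⟨K, hK, h1⟩ := nm_sum_eig Q₂ s
    obtain ⟨K', hK', h2⟩ := F₂.h_le s
    refine ⟨K' * K, by positivity, fun F w hw i j => ?_⟩
    have h3 : ∀ l, ∃ x, l ∈ F → ∀ i j, J₂ x (i, j) = w l i j := by
      intro l
      by_cases hl : l ∈ F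
      · obtain ⟨x, hx⟩ := hT _ (hw l hl).1
        exact ⟨x, fun _ => hx⟩
      · exact ⟨0, fun h => absurd h hl⟩
    choose x hx using h3
    have h4 : ∀ l ∈ F, Q₂.L (x l) = l • x l := by
      intro l hl
      rw [F₂.eig_iff]
      rintro ⟨i, j⟩
      rw [hx l hl]
      exact (hw l hl).2.2.2 i j
    have h5 : (∑ l ∈ F, w l) i j = J₂ (∑ l ∈ F, x l) (i, j) := by
      rw [map_sum]
      simp only [Finset.sum_apply]
      exact Finset.sum_congr rfl fun l hl => (hx l hl i j).symm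
    rw [h5]
    refine (h2 _ (i, j)).trans ?_
    rw [mul_assoc]
    refine mul_le_mul_of_nonneg_left ((h1 F x h4).trans (le_of_eq ?_)) hK'
    congr 2
    refine Finset.sum_congr rfl fun l hl => ?_
    rw [F₂.ip, B2_apply, Fintype.sum_prod_type]
    simp only [hx l hl]

end Fam

end Vale.Agent.P207.H546
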