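import Vale.Agent.P207.H546.TensB
import Vale.Agent.P207.H395.Spec

/-!
# P207: finite dimension of the eigenspaces

`FD` for 728: the smooth functions with `∑ X_a X_a f = μ f` form a finite dimensional space; the
same for the families of type `ρ` with `cas f = -l f`.
-/

open Filter Topology MeasureTheory Set
open scoped InnerProductSpace

noncomputable section

set_option linter.unusedSectionVars false

namespace Vale.Agent.P207.H546

open H395 H395.HSys H442 H442.FrCalc

section Abstract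

variable {ι : Type} [Fintype ι] {H : Type} [NormedAddCommGroup H] [InnerProductSpace ℝ H]
  [CompleteSpace H] {S : HSys ι H} {B : H →L[ℝ] H}

theorem pos_zero : Pos (0 : H →L[ℝ] H) :=
  ⟨fun u v => by simp, fun u => by simp⟩

/-- **the eigenspaces are finite dimensional** -/
theorem fd_eig (hR : S.Rel) (hB : Pos B) (l : ℝ) : FiniteDimensional ℝ (S.eig hB l) := by
  by_cases hl : l = 0
  · rw [hl, S.eig_zero hB]
    infer_instance
  · exact ContinuousLinearMap.finite_dimensional_eigenspace (S.isCompactOperator_res hR hB)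
      l⁻¹ (inv_ne_zero hl)

/-- a space of smooth eigenvectors is finite dimensional -/
theorem fd_of_lap (hR : S.Rel) (hB : Pos B) (hT : B ∈ S.T) (l : ℝ) {W : Type*} [AddCommGroup W]
    [Module ℝ W] (J : W →ₗ[ℝ] S.A) (hJ : Function.Injective J)
    (h : ∀ w, S.lap hT (J w) = l • J w) : FiniteDimensional ℝ W := by
  have := fd_eig hR hB l
  have h1 : ∀ w, (J w : H) ∈ S.eig hB l := by
    intro w
    rw [mem_eig]
    have h2 := S.res_lap hB hT (J w)
    rw [h w, Submodule.coe_smul, map_smul] at h2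
    by_cases hl : l = 0
    · rw [hl, zero_smul] at h2
      rw [← h2]
      simp
    · have h3 : l⁻¹ • (J w : H) = l⁻¹ • l • S.res hB (J w : H) := by rw [h2]
      rw [h3, smul_smul, inv_mul_cancel₀ hl, one_smul]
  let J' : W →ₗ[ℝ] S.eig hB l :=
    { toFun := fun w => ⟨(J w : H), h1 w⟩
      map_add' := fun w w' => Subtype.ext (by simp)
      map_smul' := fun c w => Subtype.ext (by simp) }
  refine FiniteDimensional.of_injective J' fun w w' hw => hJ ?_
  exact Subtype.ext (congrArg (fun z : S.eig hB l => (z : H)) hw)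

/-- a space of smooth eigenvectors of `∑ X_i X_i` is finite dimensional -/
theorem fd_of_sum (hR : S.Rel) (mu : ℝ) {W : Type*} [AddCommGroup W]
    [Module ℝ W] (J : W →ₗ[ℝ] S.A) (hJ : Function.Injective J)
    (h : ∀ w, ∑ i, S.X i (S.X i (J w)) = mu • J w) : FiniteDimensional ℝ W := by
  refine fd_of_lap hR pos_zero S.T.zero_mem (1 - mu) J hJ fun w => Subtype.ext ?_
  have h1 := congrArg (fun z : S.A => (z : H)) (h w)
  simp only [AddSubmonoidClass.coe_finsetSum, Submodule.coe_smul] at h1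
  rw [coe_lap, h1, Submodule.coe_smul]
  simp only [zero_apply, add_zero, sub_smul, one_smul]

end Abstract

section Vec

variable {ι : Type} [Fintype ι] {N : Type} [TopologicalSpace N] [CompactSpace N]
  [MeasurableSpace N] [BorelSpace N] {μ : Measure N} [IsFiniteMeasure μ]
  [T2Space N] [μ.WeaklyRegular] [μ.IsOpenPosMeasure]

variable {S : NSys ι N μ} {κ : Type} [Fintype κ]

/-- **(FD)** a space of smooth functions with `∑ X_a X_a f = mu f` is finite dimensional -/
theorem fd_fun (hR : (H571.toHSys S).Rel) (mu : ℝ) {W : Type*} [AddCommGroup W] [Module ℝ W]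
    (J : W →ₗ[ℝ] S.A) (hJ : Function.Injective J)
    (h : ∀ w, ∑ a, S.X a (S.X a (J w)) = mu • J w) : FiniteDimensional ℝ W := by
  refine fd_of_sum hR mu ((H571.cls S).toLinearMap ∘ₗ J)
    ((H571.cls S).injective.comp hJ) fun w => ?_
  change ∑ i, (H571.toHSys S).X i ((H571.toHSys S).X i (H571.cls S (J w))) =
    mu • H571.cls S (J w)
  simp only [H571.toHSys_X]
  rw [← map_smul, ← h w, map_sum]
  rfl

/-- **(FD)** for a submodule -/
theorem fd_sub (hR : (H571.toHSys S).Rel) (mu : ℝ) (V : Submodule ℝ S.A)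
    (h : ∀ f ∈ V, ∑ a, S.X a (S.X a f) = mu • f) : FiniteDimensional ℝ V :=
  fd_fun hR mu V.subtype Subtype.val_injective fun w => h w w.2

/-- **(FD)** the eigenspace of `∑ X_a X_a` -/
theorem fd_ker (hR : (H571.toHSys S).Rel) (mu : ℝ) : FiniteDimensional ℝ
    (LinearMap.ker (∑ a, (S.X a : S.A →ₗ[ℝ] S.A) ∘ₗ (S.X a : S.A →ₗ[ℝ] S.A) -
      mu • (LinearMap.id : S.A →ₗ[ℝ] S.A))) := by
  refine fd_sub hR mu _ fun f hf => ?_
  rw [LinearMap.mem_ker] at hf
  simp only [LinearMap.sub_apply, LinearMap.sum_apply, LinearMap.comp_apply, LinearMap.smul_apply,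
    LinearMap.id_apply] at hf
  exact sub_eq_zero.1 hf

/-- families of functions with `∑ X_a X_a f = mu f` -/
theorem fd_funs (hR : (Qs S κ).Rel) (mu : ℝ) {W : Type*} [AddCommGroup W] [Module ℝ W]
    (J : W →ₗ[ℝ] (κ → S.A)) (hJ : Function.Injective J)
    (h : ∀ w α, ∑ a, S.X a (S.X a (J w α)) = mu • J w α) : FiniteDimensional ℝ W := by
  refine fd_of_sum hR mu ((vec S κ).toLinearMap ∘ₗ J) ((vec S κ).injective.comp hJ) fun w => ?_
  change ∑ i, (Qs S κ).X i ((Qs S κ).X i (vec S κ (J w))) = mu • vec S κ (J w)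
  simp only [X_vec]
  rw [← map_smul, ← map_sum]
  congr 1
  funext α
  rw [Finset.sum_apply, h w α]
  rfl

end Vec

section Rho

variable {n : ℕ} {N : Type} [TopologicalSpace N] [CompactSpace N]
  [MeasurableSpace N] [BorelSpace N] {μ : Measure N} [IsFiniteMeasure μ]
  [T2Space N] [μ.WeaklyRegular] [μ.IsOpenPosMeasure]
  {S : NSys (Fin n ⊕ (Fin n × Fin n)) N μ} {C : FrCalc n S.A}
  {κ : Type} [Fintype κ] [DecidableEq κ]

/-- **the families of type `ρ` with `cas f = l f` form a finite dimensional space** -/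
theorem fd_fam (hC : Cpt S C) (hR : (Qs S κ).Rel) {ρ : Fin n → Fin n → Matrix κ κ ℝ}
    (hρ : IsRep ρ) (l : ℝ) {W : Type*} [AddCommGroup W] [Module ℝ W]
    (J : W →ₗ[ℝ] (κ → S.A)) (hJ : Function.Injective J) (hF : ∀ w, C.IsFam ρ (J w))
    (h : ∀ w α, C.cas (J w α) = l • J w α) : FiniteDimensional ℝ W := by
  obtain ⟨c, -, hc⟩ := exists_pos (S := S) (C := C) hρ
  refine fd_of_lap hR (hc c le_rfl) (brho_mem ρ c) (1 + c - l) ((vec S κ).toLinearMap ∘ₗ J)
    ((vec S κ).injective.comp hJ) fun w => ?_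
  change (Qs S κ).lap (brho_mem ρ c) (vec S κ (J w)) = (1 + c - l) • vec S κ (J w)
  rw [lap_fam hC c (hF w), ← map_smul]
  congr 1
  funext α
  rw [h w α, Pi.smul_apply, sub_smul (1 + c) l]

end Rho

end Vale.Agent.P207.H546
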