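import Vale.Agent.P207.H469.KPr
import Vale.Agent.P207.H571.Inv
import Vale.Agent.P207.Kat.Q

/-!
# P207, block POS, hole H4 (b), (c): the K-types of a symmetric 2-tensor along the fibre

`k_00` as a function on the unit tangent bundle: vertical derivatives, the fibre Laplacians on the
components of type `(0,0)`, `(2,0)`, `(2,2)`, the fibre averages.
-/

set_option linter.unusedSectionVars false

noncomputable section

namespace Vale.Agent.P207.H546.KF

open Finset Vale.Agent.P207.H442 Vale.Agent.P207.H442.FrCalc Vale.Agent.P207.H469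

variable {n : ℕ} [NeZero n] {A : Type*} [CommRing A] [Algebra ℝ A] {C : FrCalc n A}

/-! ### vertical derivatives -/

theorem ac_z {B : Type*} [AddCommGroup B] {a : Fin n} (ha : a ≠ 0) (T : Fin n → B) :
    ac a 0 T 0 = T a := by
  unfold ac
  rw [if_pos rfl, if_neg ha, sub_zero]

theorem ac_nz {B : Type*} [AddCommGroup B] {a b : Fin n} (hb : b ≠ 0) (T : Fin n → B) :
    ac a 0 T b = -(if a = b then T 0 else 0) := by
  unfold ac
  rw [if_neg (fun h => hb h.symm), zero_sub]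

/-- `V_{a0} w_0 = w_a` -/
theorem V_T1 {w : Fin n → A} (hw : C.T1 w) {a : Fin n} (ha : a ≠ 0) : C.V a 0 (w 0) = w a := by
  rw [hw, ac_z ha]

theorem V_T1' {w : Fin n → A} (hw : C.T1 w) {a b : Fin n} (hb : b ≠ 0) :
    C.V a 0 (w b) = -(if a = b then w 0 else 0) := by
  rw [hw, ac_nz hb]

/-- `V_{a0} k_00 = 2 k_{a0}` -/
theorem V_T2 {k : Fin n → Fin n → A} (hk : C.T2 k) (hs : ∀ i j, k i j = k j i) {a : Fin n}
    (ha : a ≠ 0) : C.V a 0 (k 0 0) = (2 : ℝ) • k a 0 := by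
  rw [hk, ac_z ha, ac_z ha, hs 0 a, two_smul]

theorem V_T2' {k : Fin n → Fin n → A} (hk : C.T2 k) {a b : Fin n}
    (ha : a ≠ 0) (hb : b ≠ 0) : C.V a 0 (k b 0) = k b a - (if a = b then k 0 0 else 0) := by
  rw [hk, ac_nz hb, ac_z ha]
  ring

/-- `V_{a0} V_{b0} k_00 = 2 k_{ab} - 2 δ_ab k_00` -/
theorem V_V_T2 {k : Fin n → Fin n → A} (hk : C.T2 k) (hs : ∀ i j, k i j = k j i) {a b : Fin n}
    (ha : a ≠ 0) (hb : b ≠ 0) : C.V a 0 (C.V b 0 (k 0 0)) =
      (2 : ℝ) • (k a b - (if a = b then k 0 0 else 0)) := by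
  rw [V_T2 hk hs hb, Derivation.map_smul, V_T2' hk ha hb, hs b a]

/-! ### the fibre Laplacians -/

variable (C) in
/-- the Laplacian of the fibre -/
def Dt (f : A) : A := -∑ i, C.V i 0 (C.V i 0 f)

variable (C) in
/-- the Laplacian of the fibre in the directions of `Q` -/
def Dq (Q : Fin n → Fin n → A) (f : A) : A := -∑ i, ∑ j, Q i j * C.V i 0 (C.V j 0 f)

theorem Dt_smul (c : ℝ) (f : A) : Dt C (c • f) = c • Dt C f := by
  simp only [Dt, Derivation.map_smul, ← Finset.smul_sum, smul_neg]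

theorem Dq_smul (Q : Fin n → Fin n → A) (c : ℝ) (f : A) : Dq C Q (c • f) = c • Dq C Q f := by
  simp only [Dq, Derivation.map_smul, mul_smul_comm, ← Finset.smul_sum, smul_neg]

theorem sum_ne_zero {B : Type*} [AddCommGroup B] (F : Fin n → B) :
    ∑ i, (if i = 0 then 0 else F i) = (∑ i, F i) - F 0 := by
  have h : ∀ i, (if i = 0 then 0 else F i) = F i - (if i = 0 then F 0 else 0) := by
    intro i
    by_cases hi : i = 0
    · rw [if_pos hi, if_pos hi, hi, sub_self]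
    · rw [if_neg hi, if_neg hi, sub_zero]
  simp only [h, Finset.sum_sub_distrib, Finset.sum_ite_eq', Finset.mem_univ, if_true]

/-- `Δ w_0 = (n - 1) w_0` -/
theorem Dt_T1 {w : Fin n → A} (hw : C.T1 w) : Dt C (w 0) = ((n : ℝ) - 1) • w 0 := by
  have h : ∀ i, C.V i 0 (C.V i 0 (w 0)) = if i = 0 then 0 else -w 0 := by
    intro i
    by_cases hi : i = 0
    · rw [if_pos hi, hi, V_self]
    · rw [if_neg hi, V_T1 hw hi, V_T1' hw hi, if_pos rfl]
  unfold Dt
  rw [Finset.sum_congr rfl fun i _ => h i, sum_ne_zero (fun _ => -w 0)]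
  simp only [Finset.sum_const, Finset.card_univ, Fintype.card_fin]
  rw [← Nat.cast_smul_eq_nsmul ℝ]
  module

/-- `Δ k_00 = 2 n k_00 - 2 tr k` -/
theorem Dt_T2 {k : Fin n → Fin n → A} (hk : C.T2 k) (hs : ∀ i j, k i j = k j i) :
    Dt C (k 0 0) = (2 * (n : ℝ)) • k 0 0 - (2 : ℝ) • ∑ i, k i i := by
  have h : ∀ i, C.V i 0 (C.V i 0 (k 0 0)) =
      if i = 0 then 0 else (2 : ℝ) • (k i i - k 0 0) := by
    intro i
    by_cases hi : i = 0
    · rw [if_pos hi, hi, V_self]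
    · rw [if_neg hi, V_V_T2 hk hs hi hi, if_pos rfl]
  unfold Dt
  rw [Finset.sum_congr rfl fun i _ => h i, sum_ne_zero (fun i => (2 : ℝ) • (k i i - k 0 0)),
    sub_self, smul_zero, sub_zero, ← Finset.smul_sum, Finset.sum_sub_distrib]
  simp only [Finset.sum_const, Finset.card_univ, Fintype.card_fin]
  rw [← Nat.cast_smul_eq_nsmul ℝ]
  module

/-- `Δ T_000 = 3 (n + 1) T_000 - 2 (∑ T_ii0 + ∑ T_i0i + ∑ T_0ii)` -/
theorem Dt_T3 {T : Fin n → Fin n → Fin n → A} (hT : C.T3 T) :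
    Dt C (T 0 0 0) = (3 * ((n : ℝ) + 1)) • T 0 0 0
      - (2 : ℝ) • (∑ i, T i i 0 + ∑ i, T i 0 i + ∑ i, T 0 i i) := by
  have h : ∀ i, C.V i 0 (C.V i 0 (T 0 0 0)) = if i = 0 then 0 else
      ((2 : ℝ) • (T i i 0 + T i 0 i + T 0 i i) - (3 : ℝ) • T 0 0 0) := by
    intro i
    by_cases hi : i = 0
    · rw [if_pos hi, hi, V_self]
    · rw [if_neg hi, hT, ac_z hi, ac_z hi, ac_z hi, map_add, map_add, hT i 0 i 0 0, hT i 0 0 i 0,
        hT i 0 0 0 i]
      simp only [ac_z hi, ac_nz hi, if_true]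
      module
  unfold Dt
  rw [Finset.sum_congr rfl fun i _ => h i, sum_ne_zero (fun i =>
    ((2 : ℝ) • (T i i 0 + T i 0 i + T 0 i i) - (3 : ℝ) • T 0 0 0)), Finset.sum_sub_distrib,
    ← Finset.smul_sum, Finset.sum_add_distrib, Finset.sum_add_distrib]
  simp only [Finset.sum_const, Finset.card_univ, Fintype.card_fin]
  rw [← Nat.cast_smul_eq_nsmul ℝ]
  module

/-- `Δ (H_0 k_00) = 3 (n + 1) H_0 k_00 - 2 H_0 tr k - 4 (div k)_0` -/
theorem Dt_H_T2 {k : Fin n → Fin n → A} (hk : C.T2 k) (hs : ∀ i j, k i j = k j i) :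
    Dt C (C.H 0 (k 0 0)) = (3 * ((n : ℝ) + 1)) • C.H 0 (k 0 0)
      - (2 : ℝ) • C.H 0 (∑ i, k i i) - (4 : ℝ) • Kat.divf C k 0 := by
  rw [Dt_T3 hk.nabla]
  have h1 : ∀ i, C.H i (k 0 i) = C.H i (k i 0) := fun i => by rw [hs]
  rw [map_sum, Kat.divf, Finset.sum_congr rfl fun i _ => h1 i]
  module

/-- `Δ_Q k_00 = 2 (tr Q) k_00 - 2 ∑ Q_ij k_ij` -/
theorem Dq_T2 {k : Fin n → Fin n → A} (hk : C.T2 k) (hs : ∀ i j, k i j = k j i)
    {Q : Fin n → Fin n → A} (hQ1 : ∀ j, Q 0 j = 0) (hQ2 : ∀ i, Q i 0 = 0) :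
    Dq C Q (k 0 0) = (2 : ℝ) • ((∑ i, Q i i) * k 0 0) - (2 : ℝ) • ∑ i, ∑ j, Q i j * k i j := by
  have h : ∀ i j, Q i j * C.V i 0 (C.V j 0 (k 0 0)) =
      (2 : ℝ) • (Q i j * k i j) - (2 : ℝ) • (if i = j then Q i j * k 0 0 else 0) := by
    intro i j
    by_cases hi : i = 0
    · rw [hi, hQ1]
      simp
    · by_cases hj : j = 0
      · rw [hj, hQ2]
        simp
      · rw [V_V_T2 hk hs hi hj]
        split_ifs
        · rw [mul_smul_comm, mul_sub, smul_sub]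
        · rw [sub_zero, smul_zero, sub_zero, mul_smul_comm]
  unfold Dq
  simp only [h, Finset.sum_sub_distrib, ← Finset.smul_sum, Finset.sum_ite_eq, Finset.mem_univ,
    if_true, Finset.sum_mul]
  module

/-! ### the leaf projection -/

variable (C) in
/-- the projection on the eigenspace `b²` of the Jacobi operator -/
def PP (b : ℝ) (i j : Fin n) : A :=
  (4 / (3 * b ^ 2)) • (Kat.Kf C i j - (b ^ 2 / 4) • (if i = j ∧ i ≠ 0 then (1 : A) else 0))

theorem Kf_zero_right (i : Fin n) : Kat.Kf C i 0 = 0 := H571.Kf_right (C := C) 0 i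

theorem Kf_zero_left (i : Fin n) : Kat.Kf C 0 i = 0 := H571.Kf_left (C := C) 0 i

theorem Kf_symm (i j : Fin n) : Kat.Kf C i j = Kat.Kf C j i := H571.Kf_symm (C := C) 0 i j

theorem PP_zero_left (b : ℝ) (j : Fin n) : PP C b 0 j = 0 := by
  unfold PP
  rw [Kf_zero_left, if_neg (by simp)]
  simp

theorem PP_zero_right (b : ℝ) (i : Fin n) : PP C b i 0 = 0 := by
  unfold PP
  rw [Kf_zero_right, if_neg (by rintro ⟨h1, h2⟩; exact h2 h1)]
  simp

theorem PP_symm (b : ℝ) (i j : Fin n) : PP C b i j = PP C b j i := by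
  by_cases h : i = j
  · rw [h]
  · unfold PP
    rw [Kf_symm, if_neg (fun h1 => h h1.1), if_neg (fun h1 => h h1.1.symm)]

theorem sum_perp (k : Fin n → Fin n → A) :
    ∑ i, ∑ j, (if i = j ∧ i ≠ 0 then (1 : A) else 0) * k i j = (∑ i, k i i) - k 0 0 := by
  rw [← sum_ne_zero (fun i => k i i)]
  refine Finset.sum_congr rfl fun i _ => ?_
  by_cases hi : i = 0
  · rw [if_pos hi]
    exact Finset.sum_eq_zero fun j _ => by
      rw [if_neg (fun h => h.2 hi), zero_mul]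
  · rw [if_neg hi]
    have h : ∀ j, (if i = j ∧ i ≠ 0 then (1 : A) else 0) * k i j = if i = j then k i j else 0 := by
      intro j
      by_cases hj : i = j
      · rw [if_pos ⟨hj, hi⟩, if_pos hj, one_mul]
      · rw [if_neg (fun h => hj h.1), if_neg hj, zero_mul]
    simp only [h, Finset.sum_ite_eq, Finset.mem_univ, if_true]

theorem Kf_eq (i j : Fin n) : Kat.Kf C i j = C.R 0 i 0 j := by
  unfold Kat.Kf
  rw [C.R_anti i 0 0 j, neg_neg]

/-- the curvature operator at `e_0` -/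
theorem sum_Kf (k : Fin n → Fin n → A) : ∑ i, ∑ j, Kat.Kf C i j * k i j = Ro C k 0 0 := by
  rw [Ro_apply]
  simp only [Kf_eq]

/-- **the leaf sum at `e_0`** -/
theorem sum_PP {b : ℝ} (hb : 0 < b) (k : Fin n → Fin n → A) :
    ∑ i, ∑ j, PP C b i j * k i j = Tm C b k 0 0 - k 0 0 := by
  have h1 : ∑ i, ∑ j, PP C b i j * k i j = (4 / (3 * b ^ 2)) •
      (∑ i, ∑ j, Kat.Kf C i j * k i j - (b ^ 2 / 4) •
        ∑ i, ∑ j, (if i = j ∧ i ≠ 0 then (1 : A) else 0) * k i j) := by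
    simp only [PP, smul_mul_assoc, sub_mul, ← Finset.smul_sum, Finset.sum_sub_distrib]
  rw [h1, sum_Kf, sum_perp, Tm_apply]
  simp only [Pi.smul_apply, Pi.add_apply, Pi.sub_apply, dl_apply, if_true, tr2_apply]
  match_scalars <;> field_simp <;> norm_num

variable {b c₀ : ℝ}

/-- the trace of the leaf projection -/
theorem tr_PP (h : RankOne C b c₀) : ∑ i, PP C b i i = (NN n b c₀ - 1) • (1 : A) := by
  have h1 := sum_PP (C := C) h.pos (dl (n := n) (1 : A))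
  rw [Tm_dl h.pos h.ein] at h1
  simp only [dl_apply, Pi.smul_apply, if_true, mul_ite, mul_one, mul_zero, Finset.sum_ite_eq,
    Finset.mem_univ] at h1
  rw [h1, sub_smul, one_smul]

/-- **the leaf Laplacian of `k_00`** -/
theorem Dq_PP (h : RankOne C b c₀) {k : Fin n → Fin n → A} (hk : C.T2 k)
    (hs : ∀ i j, k i j = k j i) :
    Dq C (PP C b) (k 0 0) = (2 * NN n b c₀) • k 0 0 - (2 : ℝ) • Tm C b k 0 0 := by
  rw [Dq_T2 hk hs (PP_zero_left b) (PP_zero_right b), tr_PP h, sum_PP h.pos, smul_mul_assoc,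
    one_mul]
  module

/-! ### the fibre Laplacians on the types -/

section types

variable (h : RankOne C b c₀) {k : Fin n → Fin n → A} (hk : C.T2 k) (hs : ∀ i j, k i j = k j i)
include h hk hs

/-- type `(2,2)`: `Δ_2 = 2 (d + 1)` -/
theorem Dq_k22 : Dq C (PP C b) (k22 C b c₀ k 0 0) = (2 * NN n b c₀) • k22 C b c₀ k 0 0 := by
  rw [Dq_PP h (T2_k22 hk) (k22_symm hs), h.Tm_k22 hs]
  simp

/-- type `(2,0)`: `Δ_2 = 0` -/
theorem Dq_k20 : Dq C (PP C b) (k20 C b c₀ k 0 0) = 0 := by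
  rw [Dq_PP h (T2_k20 hk) (k20_symm hs), h.Tm_k20 hs]
  simp only [Pi.smul_apply]
  module

/-- type `(2,2)`: `Δ = 2 n` -/
theorem Dt_k22 : Dt C (k22 C b c₀ k 0 0) = (2 * (n : ℝ)) • k22 C b c₀ k 0 0 := by
  have h1 := h.tr2_k22 k
  rw [tr2_apply] at h1
  rw [Dt_T2 (T2_k22 hk) (k22_symm hs), h1, smul_zero, sub_zero]

/-- type `(2,0)`: `Δ = 2 n` -/
theorem Dt_k20 : Dt C (k20 C b c₀ k 0 0) = (2 * (n : ℝ)) • k20 C b c₀ k 0 0 := by
  have h1 := h.tr2_k20 k
  rw [tr2_apply] at h1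
  rw [Dt_T2 (T2_k20 hk) (k20_symm hs), h1, smul_zero, sub_zero]

end types

/-- the component of type `(0,0)` is constant along the fibre -/
theorem V_k00 {k : Fin n → Fin n → A} (hk : C.T2 k) (a c : Fin n) :
    C.V a c (k00 n k 0 0) = 0 := by
  rw [k00_apply]
  simp only [Pi.smul_apply, dl_apply, if_true]
  rw [Derivation.map_smul, T0_tr2 hk, smul_zero]

/-! ### fibre averages -/

variable {I : A →ₗ[ℝ] ℝ}

/-- **the fibre average of `k_00 l_00`** -/
theorem I_00 (hI : C.IsInt I) {k l : Fin n → Fin n → A} (hk : C.T2 k) (hl : C.T2 l)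
    (hs : ∀ i j, k i j = k j i) (hs' : ∀ i j, l i j = l j i) :
    (n : ℝ) * (n + 2) * I (k 0 0 * l 0 0) = 2 * I (ip k l) + I (tr2 k * tr2 l) := by
  -- averages of the contraction and of the trace
  have h1 : (n : ℝ) * ∑ i, I (k 0 i * l 0 i) = I (ip k l) := by
    have e := H571.avg_tr hI (H571.T2_mul_tr hk hl) 0
    rw [map_sum] at e
    rw [e]
    rfl
  have h2 : (n : ℝ) * I (k 0 0 * tr2 l) = I (tr2 k * tr2 l) := by
    have hT : C.T2 (fun i j => tr2 l * k i j) := hk.mul0 (T0_tr2 hl)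
    have e := H571.avg_tr hI hT 0
    rw [mul_comm (k 0 0), e, ← Finset.mul_sum, mul_comm (tr2 l)]
    rfl
  -- integration by parts along the fibre
  have h3 : ∀ a, (if a = 0 then 0 else
      (2 * I (k 0 a * l 0 a) + I (k 0 0 * l a a) - I (k 0 0 * l 0 0))) = 0 := by
    intro a
    by_cases ha : a = 0
    · rw [if_pos ha]
    · rw [if_neg ha]
      have e := hI.ver a 0 (k 0 0 * l a 0)
      rw [Derivation.leibniz, smul_eq_mul, smul_eq_mul, V_T2' hl ha ha, if_pos rfl,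
        V_T2 hk hs ha, map_add, mul_sub, map_sub, mul_smul_comm, map_smul, smul_eq_mul,
        hs a 0, hs' a 0, mul_comm (l 0 a)] at e
      linarith
  have h4 := sum_ne_zero (fun a => 2 * I (k 0 a * l 0 a) + I (k 0 0 * l a a) - I (k 0 0 * l 0 0))
  rw [Finset.sum_eq_zero fun a _ => h3 a, Finset.sum_sub_distrib, Finset.sum_add_distrib,
    ← Finset.mul_sum] at h4
  simp only [Finset.sum_const, Finset.card_univ, Fintype.card_fin, nsmul_eq_mul] at h4
  have h5 : ∑ a, I (k 0 0 * l a a) = I (k 0 0 * tr2 l) := by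
    rw [tr2_apply, Finset.mul_sum, map_sum]
  rw [h5] at h4
  linear_combination (n : ℝ) * h4 + 2 * h1 + h2

/-- `|k|² = (n (n + 2) / 2) |k_00|² - (1/2) |tr k|²` -/
theorem I_ip (hI : C.IsInt I) {k l : Fin n → Fin n → A} (hk : C.T2 k) (hl : C.T2 l)
    (hs : ∀ i j, k i j = k j i) (hs' : ∀ i j, l i j = l j i) :
    I (ip k l) = (n : ℝ) * (n + 2) / 2 * I (k 0 0 * l 0 0) - (1 / 2) * I (tr2 k * tr2 l) := by
  have h := I_00 hI hk hl hs hs'
  linarith

/-- trace free: `|k|² = (n (n + 2) / 2) |k_00|²` -/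
theorem I_ip_tf (hI : C.IsInt I) {k l : Fin n → Fin n → A} (hk : C.T2 k) (hl : C.T2 l)
    (hs : ∀ i j, k i j = k j i) (hs' : ∀ i j, l i j = l j i) (ht : tr2 l = 0) :
    I (ip k l) = (n : ℝ) * (n + 2) / 2 * I (k 0 0 * l 0 0) := by
  rw [I_ip hI hk hl hs hs', ht, mul_zero, map_zero, mul_zero, sub_zero]

/-- `|k^(00)|² = n |k^(00)_00|²`, pointwise -/
theorem ip_k00_k00 (k l : Fin n → Fin n → A) :
    ip (k00 n k) (k00 n l) = (n : ℝ) • (k00 n k 0 0 * k00 n l 0 0) := by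
  have hn : (n : ℝ) ≠ 0 := Nat.cast_ne_zero.2 (NeZero.ne n)
  rw [k00_apply k, ip_smul_left, ip_dl_left, tr2_k00, k00_apply l]
  simp only [Pi.smul_apply, dl_apply, if_true]
  rw [smul_mul_assoc, mul_smul_comm, smul_smul, smul_smul]
  congr 1
  field_simp

section types

variable (h : RankOne C b c₀) (hI : C.IsInt I) {k l : Fin n → Fin n → A} (hk : C.T2 k)
  (hl : C.T2 l) (hs : ∀ i j, k i j = k j i) (hs' : ∀ i j, l i j = l j i)
include h hI hk hl hs hs'

/-- type `(2,2)`: `|k|² = (n (n + 2) / 2) |k_00|²` -/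
theorem I_ip_22 : I (ip (k22 C b c₀ k) (k22 C b c₀ l)) =
    (n : ℝ) * (n + 2) / 2 * I (k22 C b c₀ k 0 0 * k22 C b c₀ l 0 0) :=
  I_ip_tf hI (T2_k22 hk) (T2_k22 hl) (k22_symm hs) (k22_symm hs') (h.tr2_k22 l)

/-- type `(2,0)`: `|k|² = (n (n + 2) / 2) |k_00|²` -/
theorem I_ip_20 : I (ip (k20 C b c₀ k) (k20 C b c₀ l)) =
    (n : ℝ) * (n + 2) / 2 * I (k20 C b c₀ k 0 0 * k20 C b c₀ l 0 0) :=
  I_ip_tf hI (T2_k20 hk) (T2_k20 hl) (k20_symm hs) (k20_symm hs') (h.tr2_k20 l)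

/-- orthogonality of the types `(2,0)`, `(2,2)` on the unit tangent bundle -/
theorem I_20_22 : I (k20 C b c₀ k 0 0 * k22 C b c₀ l 0 0) = 0 := by
  have hn : (n : ℝ) ≠ 0 := Nat.cast_ne_zero.2 (NeZero.ne n)
  have h1 := I_00 hI (T2_k20 hk (b := b) (c₀ := c₀)) (T2_k22 hl (b := b) (c₀ := c₀)) (k20_symm hs)
    (k22_symm hs')
  rw [h.ip_20_22 k hs', h.tr2_k22, mul_zero, map_zero, mul_zero, add_zero] at h1
  rcases mul_eq_zero.1 h1 with h2 | h2
  · exfalso
    have : (0 : ℝ) < n := lt_of_le_of_ne (Nat.cast_nonneg n) (Ne.symm hn)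
    have : (n : ℝ) * (n + 2) ≠ 0 := by positivity
    exact this h2
  · exact h2

/-- orthogonality of the types `(0,0)`, `(2,2)` on the unit tangent bundle -/
theorem I_00_22 : I (k00 n k 0 0 * k22 C b c₀ l 0 0) = 0 := by
  have hn : (n : ℝ) ≠ 0 := Nat.cast_ne_zero.2 (NeZero.ne n)
  have h1 := I_00 hI (T2_k00 hk) (T2_k22 hl (b := b) (c₀ := c₀)) k00_symm (k22_symm hs')
  rw [h.ip_00_22, h.tr2_k22, mul_zero, map_zero, mul_zero, add_zero] at h1
  rcases mul_eq_zero.1 h1 with h2 | h2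
  · exfalso
    have : (0 : ℝ) < n := lt_of_le_of_ne (Nat.cast_nonneg n) (Ne.symm hn)
    have : (n : ℝ) * (n + 2) ≠ 0 := by positivity
    exact this h2
  · exact h2

/-- orthogonality of the types `(0,0)`, `(2,0)` on the unit tangent bundle -/
theorem I_00_20 : I (k00 n k 0 0 * k20 C b c₀ l 0 0) = 0 := by
  have hn : (n : ℝ) ≠ 0 := Nat.cast_ne_zero.2 (NeZero.ne n)
  have h1 := I_00 hI (T2_k00 hk) (T2_k20 hl (b := b) (c₀ := c₀)) k00_symm (k20_symm hs')
  rw [h.ip_00_20, h.tr2_k20, mul_zero, map_zero, mul_zero, add_zero] at h1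
  rcases mul_eq_zero.1 h1 with h2 | h2
  · exfalso
    have : (0 : ℝ) < n := lt_of_le_of_ne (Nat.cast_nonneg n) (Ne.symm hn)
    have : (n : ℝ) * (n + 2) ≠ 0 := by positivity
    exact this h2
  · exact h2

end types

end Vale.Agent.P207.H546.KF
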