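import Vale.Agent.P207.H442.Ten2
import Vale.Agent.P207.H442.Int

/-!
# P207, block TENS (algebra): matrix representations of the rotations, equivariance of the zero
order term of the Casimir operator, the vertical Laplacian
-/

set_option linter.unusedSectionVars false

noncomputable section

namespace Vale.Agent.P207.H546

open Finset H442 H442.FrCalc

section Contr

variable {n : ℕ}

/-- contraction of two indices, noncommutative version -/
theorem sum_ac_mul' {A : Type*} [NonUnitalNonAssocRing A] (a b : Fin n) (T U : Fin n → A) :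
    ∑ i, (ac a b T i * U i + T i * ac a b U i) = 0 := by
  simp only [ac, sub_mul, mul_sub, ite_mul, zero_mul, mul_ite, mul_zero, Finset.sum_add_distrib,
    Finset.sum_sub_distrib, Finset.sum_ite_eq, Finset.mem_univ, if_true]
  abel

theorem ac_mul_left' {A : Type*} [NonUnitalNonAssocRing A] (a b : Fin n) (c : A) (T : Fin n → A) (i : Fin n) :
    ac a b (fun i => c * T i) i = c * ac a b T i := by
  unfold ac
  rw [mul_sub, mul_ite, mul_ite, mul_zero]

theorem ac_mul_right' {A : Type*} [NonUnitalNonAssocRing A] (a b : Fin n) (c : A) (T : Fin n → A) (i : Fin n) :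
    ac a b (fun i => T i * c) i = ac a b T i * c := by
  unfold ac
  rw [sub_mul, ite_mul, ite_mul, zero_mul]

end Contr

variable {n : ℕ} {κ : Type} [Fintype κ]

/-- constant skew matrices with the commutation relations of the rotations -/
structure IsRep (ρ : Fin n → Fin n → Matrix κ κ ℝ) : Prop where
  skew : ∀ a b, (ρ a b).transpose = -ρ a b
  brk : ∀ a b k l, ρ k l * ρ a b - ρ a b * ρ k l =
    ac a b (fun k => ρ k l) k + ac a b (fun l => ρ k l) l

/-- the Casimir matrix -/
def casM (ρ : Fin n → Fin n → Matrix κ κ ℝ) : Matrix κ κ ℝ := ∑ a, ∑ b, ρ a b * ρ a b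

theorem casM_comm {ρ : Fin n → Fin n → Matrix κ κ ℝ} (hρ : IsRep ρ) (c d : Fin n) :
    casM ρ * ρ c d = ρ c d * casM ρ := by
  rw [← sub_eq_zero]
  unfold casM
  simp only [Finset.sum_mul, Finset.mul_sum, ← Finset.sum_sub_distrib]
  have h1 : ∀ a b, ρ a b * ρ a b * ρ c d - ρ c d * (ρ a b * ρ a b) =
      (ac c d (fun k => ρ k b) a * ρ a b + ρ a b * ac c d (fun k => ρ k b) a) +
      (ac c d (fun l => ρ a l) b * ρ a b + ρ a b * ac c d (fun l => ρ a l) b) := by
    intro a b
    have h := hρ.brk c d a b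
    have h2 : ρ a b * ρ a b * ρ c d - ρ c d * (ρ a b * ρ a b) =
        ρ a b * (ρ a b * ρ c d - ρ c d * ρ a b) + (ρ a b * ρ c d - ρ c d * ρ a b) * ρ a b := by
      noncomm_ring
    rw [h2, h]
    noncomm_ring
  simp only [h1, Finset.sum_add_distrib]
  have e1 : ∑ a, ∑ b, (ac c d (fun k => ρ k b) a * ρ a b + ρ a b * ac c d (fun k => ρ k b) a)
      = 0 := by
    rw [Finset.sum_comm]
    exact Finset.sum_eq_zero fun b _ => sum_ac_mul' c d (fun k => ρ k b) (fun k => ρ k b)
  have e2 : ∑ a, ∑ b, (ac c d (fun l => ρ a l) b * ρ a b + ρ a b * ac c d (fun l => ρ a l) b)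
      = 0 :=
    Finset.sum_eq_zero fun a _ => sum_ac_mul' c d (fun l => ρ a l) (fun l => ρ a l)
  simp only [← Finset.sum_add_distrib] at e1 e2 ⊢
  rw [← add_zero (0 : Matrix κ κ ℝ)]
  nth_rewrite 1 [← e1]
  rw [← e2]
  simp only [← Finset.sum_add_distrib]

theorem casM_symm {ρ : Fin n → Fin n → Matrix κ κ ℝ} (hρ : IsRep ρ) :
    (casM ρ).transpose = casM ρ := by
  unfold casM
  simp only [Matrix.transpose_sum, Matrix.transpose_mul, hρ.skew, neg_mul_neg]

section Calc

variable {A : Type*} [CommRing A] [Algebra ℝ A] {C : FrCalc n A}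

variable (C) in
/-- the vertical Laplacian -/
def vlap (f : A) : A := ∑ a, ∑ b, C.V a b (C.V a b f)

theorem V_vlap (c d : Fin n) (f : A) : C.V c d (vlap C f) = vlap C (C.V c d f) := by
  rw [← sub_eq_zero]
  unfold vlap
  simp only [map_sum, ← Finset.sum_sub_distrib]
  have h1 : ∀ a b, C.V c d (C.V a b (C.V a b f)) - C.V a b (C.V a b (C.V c d f)) =
      (ac c d (fun k => C.V k b (C.V a b f)) a + ac c d (fun k => C.V a b (C.V k b f)) a) +
      (ac c d (fun l => C.V a l (C.V a b f)) b + ac c d (fun l => C.V a b (C.V a l f)) b) := by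
    intro a b
    rw [VV c d a b (C.V a b f), VV c d a b f]
    simp only [map_add, ac_map]
    abel
  simp only [h1, Finset.sum_add_distrib]
  have e1 : ∑ a, ∑ b, (ac c d (fun k => C.V k b (C.V a b f)) a +
      ac c d (fun k => C.V a b (C.V k b f)) a) = 0 := by
    rw [Finset.sum_comm]
    exact Finset.sum_eq_zero fun b _ => sum_ac_ac c d (fun j i => C.V j b (C.V i b f))
  have e2 : ∑ a, ∑ b, (ac c d (fun l => C.V a l (C.V a b f)) b +
      ac c d (fun l => C.V a b (C.V a l f)) b) = 0 :=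
    Finset.sum_eq_zero fun a _ => sum_ac_ac c d (fun j i => C.V a j (C.V a i f))
  simp only [Finset.sum_add_distrib] at e1 e2
  rw [e1, e2, add_zero]

theorem vlap_fam {ρ : Fin n → Fin n → Matrix κ κ ℝ} {f : κ → A} (hf : C.IsFam ρ f) (α : κ) :
    vlap C (f α) = ∑ β, casM ρ α β • f β := by
  unfold vlap casM
  simp only [hf.VV, Matrix.sum_apply, Finset.sum_smul]
  calc ∑ a, ∑ b, ∑ β, (ρ a b * ρ a b) α β • f β
      = ∑ a, ∑ β, ∑ b, (ρ a b * ρ a b) α β • f β :=
        Finset.sum_congr rfl fun a _ => Finset.sum_comm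
    _ = _ := Finset.sum_comm

/-- **equivariance of the zero order term of the Casimir operator** -/
theorem V_Bm {ρ : Fin n → Fin n → Matrix κ κ ℝ} (hρ : IsRep ρ) (a b : Fin n) (α β : κ) :
    C.V a b (C.Bm ρ α β) = ∑ γ, ρ a b α γ • C.Bm ρ γ β - ∑ γ, ρ a b γ β • C.Bm ρ α γ := by
  -- the contraction identity
  have h0 := contr4 a b C.R (fun i j k l => algebraMap ℝ A ((ρ k l * ρ i j) α β))
  have hac : ∀ i j k l, ac a b (fun i => algebraMap ℝ A ((ρ k l * ρ i j) α β)) i
      + ac a b (fun j => algebraMap ℝ A ((ρ k l * ρ i j) α β)) j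
      + ac a b (fun k => algebraMap ℝ A ((ρ k l * ρ i j) α β)) k
      + ac a b (fun l => algebraMap ℝ A ((ρ k l * ρ i j) α β)) l =
      algebraMap ℝ A ((ρ k l * ρ i j * ρ a b - ρ a b * (ρ k l * ρ i j)) α β) := by
    intro i j k l
    have e0 : ∀ (F : Fin n → Matrix κ κ ℝ) (i : Fin n),
        ac a b (fun i => algebraMap ℝ A (F i α β)) i = algebraMap ℝ A ((ac a b F i) α β) := by
      intro F i
      simp only [ac]
      rw [Matrix.sub_apply, map_sub]
      congr 1
      · split_ifs <;> simp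
      · split_ifs <;> simp
    have m1 : ac a b (fun i => ρ k l * ρ i j) i = ρ k l * ac a b (fun i => ρ i j) i :=
      ac_mul_left' a b (ρ k l) (fun i => ρ i j) i
    have m2 : ac a b (fun j => ρ k l * ρ i j) j = ρ k l * ac a b (fun j => ρ i j) j :=
      ac_mul_left' a b (ρ k l) (fun j => ρ i j) j
    have m3 : ac a b (fun k => ρ k l * ρ i j) k = ac a b (fun k => ρ k l) k * ρ i j :=
      ac_mul_right' a b (ρ i j) (fun k => ρ k l) k
    have m4 : ac a b (fun l => ρ k l * ρ i j) l = ac a b (fun l => ρ k l) l * ρ i j :=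
      ac_mul_right' a b (ρ i j) (fun l => ρ k l) l
    have h1 := hρ.brk a b i j
    have h2 := hρ.brk a b k l
    have h3 : ρ k l * ρ i j * ρ a b - ρ a b * (ρ k l * ρ i j) =
        ρ k l * (ρ i j * ρ a b - ρ a b * ρ i j) + (ρ k l * ρ a b - ρ a b * ρ k l) * ρ i j := by
      noncomm_ring
    have h4 : ρ k l * ρ i j * ρ a b - ρ a b * (ρ k l * ρ i j) =
        ac a b (fun i => ρ k l * ρ i j) i + ac a b (fun j => ρ k l * ρ i j) j
        + ac a b (fun k => ρ k l * ρ i j) k + ac a b (fun l => ρ k l * ρ i j) l := by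
      rw [h3, h1, h2, m1, m2, m3, m4]
      noncomm_ring
    rw [h4, Matrix.add_apply, Matrix.add_apply, Matrix.add_apply, map_add, map_add, map_add]
    rw [← e0 (fun i => ρ k l * ρ i j), ← e0 (fun j => ρ k l * ρ i j),
      ← e0 (fun k => ρ k l * ρ i j), ← e0 (fun l => ρ k l * ρ i j)]
  simp only [hac] at h0
  have h2 : C.V a b (C.Bm ρ α β) = (1 / 4 : ℝ) • ∑ i, ∑ j, ∑ k, ∑ l,
      (ac a b (fun i => C.R i j k l) i + ac a b (fun j => C.R i j k l) j
      + ac a b (fun k => C.R i j k l) k + ac a b (fun l => C.R i j k l) l) *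
      algebraMap ℝ A ((ρ k l * ρ i j) α β) := by
    unfold FrCalc.Bm
    rw [Derivation.map_smul]
    simp only [map_sum, Derivation.map_smul, C.VR]
    congr 1
    refine Finset.sum_congr rfl fun i _ => Finset.sum_congr rfl fun j _ =>
      Finset.sum_congr rfl fun k _ => Finset.sum_congr rfl fun l _ => ?_
    rw [Algebra.smul_def, mul_comm]
  have h3 : ∑ i, ∑ j, ∑ k, ∑ l,
      (ac a b (fun i => C.R i j k l) i + ac a b (fun j => C.R i j k l) j
      + ac a b (fun k => C.R i j k l) k + ac a b (fun l => C.R i j k l) l) *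
      algebraMap ℝ A ((ρ k l * ρ i j) α β) =
      -∑ i, ∑ j, ∑ k, ∑ l, C.R i j k l *
        algebraMap ℝ A ((ρ k l * ρ i j * ρ a b - ρ a b * (ρ k l * ρ i j)) α β) := by
    rw [eq_neg_iff_add_eq_zero]
    simp only [← Finset.sum_add_distrib]
    exact h0
  have h4 : ∀ i j k l, C.R i j k l *
      algebraMap ℝ A ((ρ k l * ρ i j * ρ a b - ρ a b * (ρ k l * ρ i j)) α β) =
      (∑ γ, ρ a b γ β • ((ρ k l * ρ i j) α γ • C.R i j k l)) -
      (∑ γ, ρ a b α γ • ((ρ k l * ρ i j) γ β • C.R i j k l)) := by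
    intro i j k l
    rw [Matrix.sub_apply, map_sub, mul_sub]
    congr 1
    · rw [Matrix.mul_apply, map_sum, Finset.mul_sum]
      refine Finset.sum_congr rfl fun γ _ => ?_
      rw [smul_smul, Algebra.smul_def, mul_comm (C.R i j k l), mul_comm (ρ a b γ β)]
    · rw [Matrix.mul_apply, map_sum, Finset.mul_sum]
      refine Finset.sum_congr rfl fun γ _ => ?_
      rw [smul_smul, Algebra.smul_def, mul_comm (C.R i j k l)]
  have h5 : ∀ (x : κ → ℝ) (F : Fin n → Fin n → Fin n → Fin n → κ → A),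
      ∑ i, ∑ j, ∑ k, ∑ l, ∑ γ, x γ • F i j k l γ =
      ∑ γ, x γ • ∑ i, ∑ j, ∑ k, ∑ l, F i j k l γ := by
    intro x F
    simp only [Finset.smul_sum]
    calc ∑ i, ∑ j, ∑ k, ∑ l, ∑ γ, x γ • F i j k l γ
        = ∑ i, ∑ j, ∑ k, ∑ γ, ∑ l, x γ • F i j k l γ :=
          Finset.sum_congr rfl fun i _ => Finset.sum_congr rfl fun j _ =>
            Finset.sum_congr rfl fun k _ => Finset.sum_comm
      _ = ∑ i, ∑ j, ∑ γ, ∑ k, ∑ l, x γ • F i j k l γ :=
          Finset.sum_congr rfl fun i _ => Finset.sum_congr rfl fun j _ => Finset.sum_comm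
      _ = ∑ i, ∑ γ, ∑ j, ∑ k, ∑ l, x γ • F i j k l γ :=
          Finset.sum_congr rfl fun i _ => Finset.sum_comm
      _ = _ := Finset.sum_comm
  rw [h2, h3]
  simp only [h4, Finset.sum_sub_distrib, h5]
  rw [neg_sub, smul_sub, Finset.smul_sum, Finset.smul_sum]
  unfold FrCalc.Bm
  congr 1
  · exact Finset.sum_congr rfl fun γ _ => smul_comm _ _ _
  · exact Finset.sum_congr rfl fun γ _ => smul_comm _ _ _

/-! ### the zero order term of the elliptic operator -/

variable (C) in
/-- the zero order term: `c + Bm + ∑ ρ_ab²` -/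
def Bt [DecidableEq κ] (ρ : Fin n → Fin n → Matrix κ κ ℝ) (c : ℝ) (α β : κ) : A :=
  algebraMap ℝ A (if α = β then c else 0) + (C.Bm ρ α β + algebraMap ℝ A (casM ρ α β))

theorem Bt_symm [DecidableEq κ] {ρ : Fin n → Fin n → Matrix κ κ ℝ} (hρ : IsRep ρ) (c : ℝ)
    (α β : κ) : Bt C ρ c α β = Bt C ρ c β α := by
  unfold Bt
  have h1 : casM ρ α β = casM ρ β α := by
    conv_lhs => rw [← casM_symm hρ]
    rfl
  rw [C.Bm_symm hρ.skew α β, h1]
  congr 2
  by_cases h : α = β
  · rw [if_pos h, if_pos h.symm]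
  · rw [if_neg h, if_neg (Ne.symm h)]

/-- equivariance -/
theorem V_Bt [DecidableEq κ] {ρ : Fin n → Fin n → Matrix κ κ ℝ} (hρ : IsRep ρ) (c : ℝ)
    (a b : Fin n) (α β : κ) :
    C.V a b (Bt C ρ c α β) =
      ∑ γ, ρ a b α γ • Bt C ρ c γ β - ∑ γ, ρ a b γ β • Bt C ρ c α γ := by
  unfold Bt
  rw [map_add, map_add, Derivation.map_algebraMap, Derivation.map_algebraMap, V_Bm hρ]
  have hs : ∀ (x y : κ → ℝ), ∑ γ, x γ • algebraMap ℝ A (y γ) =
      algebraMap ℝ A (∑ γ, x γ * y γ) := by
    intro x y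
    rw [map_sum]
    exact Finset.sum_congr rfl fun γ _ => by rw [Algebra.smul_def, map_mul]
  simp only [smul_add, Finset.sum_add_distrib, hs]
  have h1 : ∑ γ, ρ a b α γ * (if γ = β then c else 0) = ρ a b α β * c := by simp
  have h2 : ∑ γ, ρ a b γ β * (if α = γ then c else 0) = ρ a b α β * c := by simp
  have h3 : ∑ γ, ρ a b α γ * casM ρ γ β = ∑ γ, ρ a b γ β * casM ρ α γ := by
    have h := congrFun (congrFun (casM_comm hρ a b) α) β
    rw [Matrix.mul_apply, Matrix.mul_apply] at h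
    rw [← h]
    exact Finset.sum_congr rfl fun γ _ => mul_comm _ _
  rw [h1, h2, h3]
  abel

/-- the elliptic operator on families of functions -/
def lapF [DecidableEq κ] (C : FrCalc n A) (ρ : Fin n → Fin n → Matrix κ κ ℝ) (c : ℝ)
    (f : κ → A) (α : κ) : A :=
  f α - (C.lap (f α) + vlap C (f α)) + ∑ β, Bt C ρ c α β * f β

/-- **on equivariant families the elliptic operator is `1 + c - cas`** -/
theorem lapF_fam [DecidableEq κ] {ρ : Fin n → Fin n → Matrix κ κ ℝ} (c : ℝ) {f : κ → A}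
    (hf : C.IsFam ρ f) (α : κ) : lapF C ρ c f α = (1 + c) • f α - C.cas (f α) := by
  unfold lapF Bt
  rw [vlap_fam hf, hf.cas]
  simp only [add_mul, Finset.sum_add_distrib, ← Algebra.smul_def, ite_smul, zero_smul,
    Finset.sum_ite_eq, Finset.mem_univ, if_true, add_smul, one_smul]
  abel

variable (C) in
/-- the defect of equivariance -/
def Wd (ρ : Fin n → Fin n → Matrix κ κ ℝ) (a b : Fin n) (f : κ → A) (α : κ) : A :=
  C.V a b (f α) - ∑ β, ρ a b α β • f β

theorem isFam_iff {ρ : Fin n → Fin n → Matrix κ κ ℝ} {f : κ → A} :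
    C.IsFam ρ f ↔ ∀ a b, Wd C ρ a b f = 0 := by
  constructor
  · intro h a b
    funext α
    simp only [Wd, h a b α, sub_self, Pi.zero_apply]
  · intro h a b α
    have := congrFun (h a b) α
    simp only [Wd, Pi.zero_apply] at this
    exact sub_eq_zero.1 this

/-- **the defect of equivariance commutes with the elliptic operator** -/
theorem Wd_lapF [DecidableEq κ] {ρ : Fin n → Fin n → Matrix κ κ ℝ} (hρ : IsRep ρ) (c : ℝ)
    (a b : Fin n) (f : κ → A) (α : κ) :
    Wd C ρ a b (fun α => lapF C ρ c f α) α = lapF C ρ c (fun α => Wd C ρ a b f α) α := by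
  have hl : ∀ (x : κ → ℝ) (h : κ → A), C.lap (∑ β, x β • h β) = ∑ β, x β • C.lap (h β) := by
    intro x h
    simp only [FrCalc.lap, map_sum, Derivation.map_smul, Finset.smul_sum]
    rw [Finset.sum_comm]
  have hv : ∀ (x : κ → ℝ) (h : κ → A), vlap C (∑ β, x β • h β) = ∑ β, x β • vlap C (h β) := by
    intro x h
    simp only [vlap, map_sum, Derivation.map_smul, Finset.smul_sum]
    calc ∑ a, ∑ b, ∑ β, x β • C.V a b (C.V a b (h β))
        = ∑ a, ∑ β, ∑ b, x β • C.V a b (C.V a b (h β)) :=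
          Finset.sum_congr rfl fun a _ => Finset.sum_comm
      _ = _ := Finset.sum_comm
  have hls : ∀ x y : A, C.lap (x - y) = C.lap x - C.lap y := by
    intro x y
    simp only [FrCalc.lap, map_sub, Finset.sum_sub_distrib]
  have hvs : ∀ x y : A, vlap C (x - y) = vlap C x - vlap C y := by
    intro x y
    simp only [vlap, map_sub, Finset.sum_sub_distrib]
  -- the zero order term
  have hB : C.V a b (∑ β, Bt C ρ c α β * f β) - ∑ γ, ρ a b α γ • ∑ β, Bt C ρ c γ β * f β =
      ∑ β, Bt C ρ c α β * (C.V a b (f β) - ∑ γ, ρ a b β γ • f γ) := by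
    simp only [map_sum, Derivation.leibniz, smul_eq_mul, V_Bt hρ, mul_sub, Finset.sum_add_distrib,
      Finset.sum_sub_distrib, Finset.mul_sum, Finset.smul_sum]
    have e1 : ∑ β, ∑ γ, f β * (ρ a b α γ • Bt C ρ c γ β) =
        ∑ γ, ∑ β, ρ a b α γ • (Bt C ρ c γ β * f β) := by
      rw [Finset.sum_comm]
      refine Finset.sum_congr rfl fun γ _ => Finset.sum_congr rfl fun β _ => ?_
      rw [mul_smul_comm, mul_comm (f β)]
    have e2 : ∑ β, ∑ γ, f β * (ρ a b γ β • Bt C ρ c α γ) =
        ∑ β, ∑ γ, Bt C ρ c α β * (ρ a b β γ • f γ) := by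
      rw [Finset.sum_comm]
      refine Finset.sum_congr rfl fun γ _ => Finset.sum_congr rfl fun β _ => ?_
      rw [mul_smul_comm, mul_smul_comm, mul_comm (f β)]
    rw [e1, e2]
    abel
  unfold Wd lapF
  simp only [map_add, map_sub, V_lap, V_vlap, hls, hvs, hl, hv, ← hB, smul_add, smul_sub,
    Finset.sum_add_distrib, Finset.sum_sub_distrib]
  abel

end Calc

end Vale.Agent.P207.H546
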